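import Mathlib

/-!
Roots over a free place (one-variable core). The order of the product of the differences of the
roots which meet at a smooth point of the surface.
-/

open Filter Topology Finset

noncomputable section

namespace Vale.Agent.P298.H400

/-- order of a finite product of analytic functions -/
theorem order_prod {ι : Type*} (s : Finset ι) (g : ι → ℂ → ℂ)
    (hg : ∀ j ∈ s, AnalyticAt ℂ (g j) 0) :
    analyticOrderAt (fun b => ∏ j ∈ s, g j b) 0 = ∑ j ∈ s, analyticOrderAt (g j) 0 := by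
  classical
  induction s using Finset.induction_on with
  | empty =>
    simp only [Finset.prod_empty, Finset.sum_empty]
    rw [analyticOrderAt_eq_zero]
    right; exact one_ne_zero
  | insert a s ha ih =>
    have h1 : (fun b => ∏ j ∈ insert a s, g j b) = g a * fun b => ∏ j ∈ s, g j b := by
      funext b
      rw [Finset.prod_insert ha]; rfl
    rw [h1, Finset.sum_insert ha]
    have hs : AnalyticAt ℂ (fun b => ∏ j ∈ s, g j b) 0 :=
      Finset.analyticAt_fun_prod _ (fun j hj => hg j (Finset.mem_insert_of_mem hj))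
    rw [analyticOrderAt_mul (hg a (Finset.mem_insert_self a s)) hs,
      ih (fun j hj => hg j (Finset.mem_insert_of_mem hj))]

/-- An analytic function with `h (θ b) = h b`, `h 0 = 0`, of finite order `d`: `θ ^ d = 1`. -/
theorem pow_order_eq_one {h : ℂ → ℂ} {θ : ℂ} {d : ℕ} (hh : AnalyticAt ℂ h 0)
    (hd : analyticOrderAt h 0 = d) (hθ : (fun b => h (θ * b)) =ᶠ[𝓝 0] h) : θ ^ d = 1 := by
  obtain ⟨u, hu, hu0, huh⟩ := hh.analyticOrderAt_eq_natCast.1 hd
  have hlim : Tendsto (fun b : ℂ => θ * b) (𝓝 0) (𝓝 0) := by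
    have : Continuous fun b : ℂ => θ * b := by fun_prop
    simpa using this.tendsto 0
  have h1 : ∀ᶠ b in 𝓝 (0 : ℂ), h (θ * b) = (θ * b - 0) ^ d • u (θ * b) := hlim.eventually huh
  have h2 : ∀ᶠ b in 𝓝[≠] (0 : ℂ), θ ^ d * u (θ * b) = u b := by
    have h3 : ∀ᶠ b in 𝓝 (0 : ℂ), b ≠ 0 → θ ^ d * u (θ * b) = u b := by
      filter_upwards [h1, huh, hθ] with b e1 e2 e3 hb
      simp only [sub_zero, smul_eq_mul] at e1 e2
      have e4 : (θ * b) ^ d * u (θ * b) = b ^ d * u b := by rw [← e1, ← e2]; exact e3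
      rw [mul_pow] at e4
      have e5 : b ^ d * (θ ^ d * u (θ * b)) = b ^ d * u b := by rw [← e4]; ring
      exact mul_left_cancel₀ (pow_ne_zero d hb) e5
    exact (eventually_nhdsWithin_iff).2 h3
  have h4 : Tendsto (fun b => θ ^ d * u (θ * b)) (𝓝[≠] (0 : ℂ)) (𝓝 (θ ^ d * u 0)) := by
    have := (hu.continuousAt.tendsto.comp hlim)
    exact (this.const_mul (θ ^ d)).mono_left nhdsWithin_le_nhds
  have h5 : Tendsto u (𝓝[≠] (0 : ℂ)) (𝓝 (u 0)) :=
    hu.continuousAt.tendsto.mono_left nhdsWithin_le_nhds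
  have h6 : θ ^ d * u 0 = u 0 := tendsto_nhds_unique (h4.congr' h2) h5
  have h7 : (θ ^ d - 1) * u 0 = 0 := by linear_combination h6
  rcases mul_eq_zero.1 h7 with h | h
  · linear_combination h
  · exact absurd h hu0

/-- difference of `h` and `h (θ ·)` -/
theorem order_sub_comp {h : ℂ → ℂ} {θ : ℂ} {d : ℕ} (hh : AnalyticAt ℂ h 0)
    (hd : analyticOrderAt h 0 = d) (hθ : θ ^ d ≠ 1) :
    analyticOrderAt (fun b => h b - h (θ * b)) 0 = d := by
  obtain ⟨u, hu, hu0, huh⟩ := hh.analyticOrderAt_eq_natCast.1 hd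
  have hlim : Tendsto (fun b : ℂ => θ * b) (𝓝 0) (𝓝 0) := by
    have : Continuous fun b : ℂ => θ * b := by fun_prop
    simpa using this.tendsto 0
  have hθa : AnalyticAt ℂ (fun b : ℂ => θ * b) 0 := by fun_prop
  have hh' : AnalyticAt ℂ h ((fun b : ℂ => θ * b) 0) := by simpa using hh
  have hu' : AnalyticAt ℂ u ((fun b : ℂ => θ * b) 0) := by simpa using hu
  have h1 : ∀ᶠ b in 𝓝 (0 : ℂ), h (θ * b) = (θ * b - 0) ^ d • u (θ * b) := hlim.eventually huh
  have ha : AnalyticAt ℂ (fun b => h b - h (θ * b)) 0 := hh.sub (hh'.comp hθa)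
  rw [ha.analyticOrderAt_eq_natCast]
  refine ⟨fun b => u b - θ ^ d * u (θ * b), hu.sub (analyticAt_const.mul (hu'.comp hθa)), ?_, ?_⟩
  · simp only [mul_zero]
    intro h0
    have : (1 - θ ^ d) * u 0 = 0 := by linear_combination h0
    rcases mul_eq_zero.1 this with h | h
    · exact hθ (by linear_combination -h)
    · exact hu0 h
  · filter_upwards [h1, huh] with b e1 e2
    rw [e1, e2]
    simp only [sub_zero, smul_eq_mul, mul_pow]
    ring

/-- One-variable core: `g j` are `n` distinct germs permuted by the rotation `b ↦ ω b`; the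
product of `z0 - g j` has order exactly `K`, `z0 = g i 0`. Then the germs with value `z0` are
the orbit of `i` and their contacts with `g i` are `K / e`. -/
theorem core {n K : ℕ} (hK : K ≠ 0) {ω : ℂ} (hω : IsPrimitiveRoot ω K) {g : Fin n → ℂ → ℂ}
    (hg : ∀ j, AnalyticAt ℂ (g j) 0) {ρ : Equiv.Perm (Fin n)}
    (hρ : ∀ j, (fun b => g j (ω * b)) =ᶠ[𝓝 0] g (ρ j))
    (hinj : ∀ j k, g j =ᶠ[𝓝 0] g k → j = k) (i : Fin n)
    (hor : analyticOrderAt (fun b => ∏ j, (g i 0 - g j b)) 0 = K) :
    Function.minimalPeriod ρ i ∣ K ∧ 0 < Function.minimalPeriod ρ i ∧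
    (∀ j, g j 0 = g i 0 → ∃ m : ℕ, (ρ ^ m) i = j) ∧
    ∀ j, j ≠ i → (∃ m : ℕ, (ρ ^ m) i = j) →
      analyticOrderAt (fun b => g i b - g j b) 0 = (K / Function.minimalPeriod ρ i : ℕ) := by
  classical
  -- iterates
  have hit : ∀ (m : ℕ) (j : Fin n), (fun b => g j (ω ^ m * b)) =ᶠ[𝓝 0] g ((ρ ^ m) j) := by
    intro m
    induction m with
    | zero => intro j; simp
    | succ m ih =>
      intro j
      have hlim : Tendsto (fun b : ℂ => ω ^ m * b) (𝓝 0) (𝓝 0) := by
        have : Continuous fun b : ℂ => ω ^ m * b := by fun_prop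
        simpa using this.tendsto 0
      have h1 := hlim.eventually (hρ j)
      have h2 := ih (ρ j)
      filter_upwards [h1, h2] with b e1 e2
      have e3 : ω ^ (m + 1) * b = ω * (ω ^ m * b) := by ring
      rw [e3, e1, e2, pow_succ, Equiv.Perm.mul_apply]
  have hval : ∀ (m : ℕ) (j : Fin n), g ((ρ ^ m) j) 0 = g j 0 := by
    intro m j
    have := (hit m j).self_of_nhds
    simpa using this.symm
  have hperK : ∀ j, (ρ ^ K) j = j := by
    intro j
    apply hinj
    have := hit K j
    rw [hω.pow_eq_one] at this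
    simpa using this.symm
  have hpow : ∀ (m : ℕ) (j : Fin n), (ρ ^ m) j = (⇑ρ)^[m] j := by
    intro m j
    rw [← Equiv.Perm.iterate_eq_pow]
  have hdvd : ∀ j, Function.minimalPeriod ρ j ∣ K := by
    intro j
    apply Function.IsPeriodicPt.minimalPeriod_dvd
    show (⇑ρ)^[K] j = j
    rw [← hpow]; exact hperK j
  have hppos : ∀ j, 0 < Function.minimalPeriod ρ j := fun j =>
    Nat.pos_of_dvd_of_pos (hdvd j) (Nat.pos_of_ne_zero hK)
  -- orders
  set z0 := g i 0 with hz0
  set N : Fin n → ℕ∞ := fun j => analyticOrderAt (fun b => z0 - g j b) 0 with hN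
  have han : ∀ j, AnalyticAt ℂ (fun b => z0 - g j b) 0 := fun j => analyticAt_const.sub (hg j)
  have hsum : ∑ j, N j = K := by
    rw [← hor, order_prod univ (fun j b => z0 - g j b) (fun j _ => han j)]
  have hfin : ∀ j, ∃ d : ℕ, N j = d := by
    intro j
    have h1 : N j ≤ K := by
      rw [← hsum]
      exact Finset.single_le_sum (fun _ _ => zero_le) (mem_univ j)
    exact ⟨(N j).toNat, (ENat.coe_toNat (ne_top_of_le_ne_top (ENat.coe_ne_top K) h1)).symm⟩
  choose d hd using hfin
  have hsumd : ∑ j, d j = K := by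
    have : ((∑ j, d j : ℕ) : ℕ∞) = K := by
      rw [← hsum, Nat.cast_sum]
      exact Finset.sum_congr rfl fun j _ => (hd j).symm
    exact_mod_cast this
  have hd1 : ∀ j, g j 0 = z0 → 1 ≤ d j := by
    intro j hj
    by_contra hcon
    have h0 : d j = 0 := by omega
    have h1 : N j = 0 := by rw [hd, h0]; rfl
    rw [hN] at h1
    rcases analyticOrderAt_eq_zero.1 h1 with h | h
    · exact h (han j)
    · apply h; simp [hj]
  have hdK : ∀ j, g j 0 = z0 → K ≤ Function.minimalPeriod ρ j * d j := by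
    intro j hj
    have h1 : (ω ^ Function.minimalPeriod ρ j) ^ d j = 1 := by
      apply pow_order_eq_one (han j) (hd j)
      have h2 := hit (Function.minimalPeriod ρ j) j
      have h3 : (ρ ^ Function.minimalPeriod ρ j) j = j := by
        rw [hpow]; exact Function.isPeriodicPt_minimalPeriod ρ j
      rw [h3] at h2
      filter_upwards [h2] with b e
      rw [e]
    rw [← pow_mul] at h1
    have h2 := (hω.pow_eq_one_iff_dvd _).1 h1
    exact Nat.le_of_dvd (Nat.mul_pos (hppos j) (hd1 j hj)) h2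
  -- the orbit
  set e := Function.minimalPeriod ρ i with he
  set Orb : Finset (Fin n) := (Finset.range e).image (fun m => (ρ ^ m) i) with hOrb
  have hOinj : Set.InjOn (fun m : ℕ => (ρ ^ m) i) (Finset.range e : Set ℕ) := by
    intro m hm m' hm' hmm
    simp only [Finset.coe_range, Set.mem_Iio] at hm hm'
    simp only [hpow] at hmm
    exact Function.iterate_injOn_Iio_minimalPeriod hm hm' hmm
  have hOcard : Orb.card = e := by
    rw [hOrb, Finset.card_image_of_injOn hOinj, Finset.card_range]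
  have hOmem : ∀ j, j ∈ Orb ↔ ∃ m : ℕ, (ρ ^ m) i = j := by
    intro j
    simp only [hOrb, Finset.mem_image, Finset.mem_range]
    constructor
    · rintro ⟨m, _, h⟩; exact ⟨m, h⟩
    · rintro ⟨m, h⟩
      refine ⟨m % e, Nat.mod_lt _ (hppos i), ?_⟩
      rw [hpow] at h ⊢
      rw [← h, he, Function.iterate_mod_minimalPeriod_eq]
  have hOval : ∀ j ∈ Orb, g j 0 = z0 := by
    intro j hj
    obtain ⟨m, rfl⟩ := (hOmem j).1 hj
    exact hval m i
  have hOper : ∀ j ∈ Orb, Function.minimalPeriod ρ j = e := by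
    intro j hj
    obtain ⟨m, rfl⟩ := (hOmem j).1 hj
    rw [hpow, he]
    exact Function.minimalPeriod_apply_iterate (Function.mem_periodicPts.2
      ⟨e, hppos i, Function.isPeriodicPt_minimalPeriod ρ i⟩) m
  obtain ⟨κ, hκ⟩ := hdvd i
  rw [← he] at hκ
  have hOd : ∀ j ∈ Orb, κ ≤ d j := by
    intro j hj
    have h1 := hdK j (hOval j hj)
    rw [hOper j hj, hκ] at h1
    exact Nat.le_of_mul_le_mul_left h1 (hppos i)
  have hsplit : ∑ j ∈ Orb, d j + ∑ j ∈ Orbᶜ, d j = K := by
    rw [Finset.sum_add_sum_compl, hsumd]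
  have hOsum : e * κ ≤ ∑ j ∈ Orb, d j := by
    calc e * κ = ∑ _j ∈ Orb, κ := by rw [Finset.sum_const, hOcard, smul_eq_mul]
      _ ≤ ∑ j ∈ Orb, d j := Finset.sum_le_sum hOd
  have hc0 : ∑ j ∈ Orbᶜ, d j = 0 := by omega
  have hOeq : ∀ j ∈ Orb, d j = κ := by
    have h1 : ∑ j ∈ Orb, d j = ∑ _j ∈ Orb, κ := by
      rw [Finset.sum_const, hOcard, smul_eq_mul]; omega
    intro j hj
    by_contra hne
    have h2 : ∑ _j ∈ Orb, κ < ∑ j ∈ Orb, d j :=
      Finset.sum_lt_sum hOd ⟨j, hj, lt_of_le_of_ne (hOd j hj) (Ne.symm hne)⟩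
    omega
  have hKe : K / e = κ := by
    rw [hκ]; exact Nat.mul_div_cancel_left κ (hppos i)
  refine ⟨hdvd i, hppos i, ?_, ?_⟩
  · intro j hj
    rw [← hOmem]
    by_contra hcon
    have h1 := hd1 j hj
    have h2 : d j ≤ ∑ j ∈ Orbᶜ, d j :=
      Finset.single_le_sum (fun _ _ => Nat.zero_le _) (Finset.mem_compl.2 hcon)
    omega
  · intro j hji hj
    obtain ⟨m, rfl⟩ := hj
    rw [hKe]
    have hi : i ∈ Orb := (hOmem i).2 ⟨0, by simp⟩
    have hdi : analyticOrderAt (fun b => z0 - g i b) 0 = κ := by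
      have := hd i
      rw [hOeq i hi] at this
      exact this
    have hθ : (ω ^ m) ^ κ ≠ 1 := by
      intro h1
      rw [← pow_mul] at h1
      have h2 := (hω.pow_eq_one_iff_dvd _).1 h1
      rw [hκ] at h2
      have hκ0 : 0 < κ := by
        rcases Nat.eq_zero_or_pos κ with h | h
        · rw [h, mul_zero] at hκ; exact absurd hκ hK
        · exact h
      have h3 : e ∣ m := Nat.dvd_of_mul_dvd_mul_right hκ0 h2
      apply hji
      rw [hpow]
      obtain ⟨c, rfl⟩ := h3
      have : (⇑ρ)^[e * c] i = i := by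
        have h5 := (Function.isPeriodicPt_minimalPeriod ρ i).mul_const c
        exact h5
      exact this
    have h1 := order_sub_comp (θ := ω ^ m) (han i) hdi hθ
    rw [← h1]
    have h2 : (fun b => z0 - g i b - (z0 - g i (ω ^ m * b))) =ᶠ[𝓝 0]
        -(fun b => g i b - g ((ρ ^ m) i) b) := by
      filter_upwards [hit m i] with b e1
      simp only [Pi.neg_apply]
      rw [← e1]; ring
    rw [analyticOrderAt_congr h2, analyticOrderAt_neg]

end Vale.Agent.P298.H400
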