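import Vale.Agent.P298.H400.Free
import Vale.Agent.P298.H983.AJ4

/-!
Row E1-FREE: the exponent of the derivative of the defining polynomial at a free place, from the
smoothness of the surface along the branch curves.
-/

open Filter Topology Finset Polynomial Vale.Agent.P298.H983

noncomputable section

namespace Vale.Agent.P298.H400

/-- a product with two factors vanishing at a point has derivative zero there -/
theorem hasDerivAt_prod_zero {n : ℕ} {f : Fin n → ℂ → ℂ} {x : ℂ}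
    (hf : ∀ j, DifferentiableAt ℂ (f j) x) {i k : Fin n} (hik : i ≠ k) (hi : f i x = 0)
    (hk : f k x = 0) : HasDerivAt (fun y => ∏ j, f j y) 0 x := by
  classical
  have h1 : ∀ y, ∏ j, f j y = f i y * (f k y * ∏ j ∈ (univ.erase i).erase k, f j y) := by
    intro y
    rw [Finset.mul_prod_erase (univ.erase i) (fun j => f j y)
      (Finset.mem_erase.2 ⟨Ne.symm hik, mem_univ k⟩), Finset.mul_prod_erase univ
      (fun j => f j y) (mem_univ i)]
  have h2 : (fun y => ∏ j, f j y) =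
      fun y => f i y * (f k y * ∏ j ∈ (univ.erase i).erase k, f j y) := funext h1
  rw [h2]
  have hd : DifferentiableAt ℂ (fun y => ∏ j ∈ (univ.erase i).erase k, f j y) x :=
    DifferentiableAt.fun_finsetProd fun j _ => hf j
  have h3 := (hf i).hasDerivAt.mul ((hf k).hasDerivAt.mul hd.hasDerivAt)
  refine h3.congr_deriv ?_
  simp [hi, hk]

/-- transfer of smoothness: `G = (f ∘ Φ) · unit`, `Φ` a submersion -/
theorem fderiv_ne_zero_of_unit_comp {E E' : Type*} [NormedAddCommGroup E] [NormedSpace ℂ E]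
    [NormedAddCommGroup E'] [NormedSpace ℂ E'] {G v : E → ℂ} {f : E' → ℂ} {Φ : E → E'} {p : E}
    (hG : G =ᶠ[𝓝 p] fun q => f (Φ q) * v q) (hf0 : f (Φ p) = 0) (hv0 : v p ≠ 0)
    (hf : DifferentiableAt ℂ f (Φ p)) (hfd : fderiv ℂ f (Φ p) ≠ 0)
    (hΦ : DifferentiableAt ℂ Φ p) (hΦs : Function.Surjective (fderiv ℂ Φ p))
    (hv : DifferentiableAt ℂ v p) : fderiv ℂ G p ≠ 0 := by
  have h1 : HasFDerivAt (fun q => f (Φ q) * v q) _ p :=
    (hf.hasFDerivAt.comp p hΦ.hasFDerivAt).mul hv.hasFDerivAt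
  rw [(h1.congr_of_eventuallyEq hG).fderiv]
  intro h
  apply hfd
  refine ContinuousLinearMap.ext fun w => ?_
  obtain ⟨u, rfl⟩ := hΦs w
  have h2 := DFunLike.congr_fun h u
  simp [hf0, hv0] at h2
  simpa using h2

variable {n K : ℕ} {A B : ℝ} {ζ : Fin n → ℂ × ℂ → ℂ} {ρ : Equiv.Perm (Fin n)}
  {P : ℂ × ℂ → ℂ[X]}

theorem powBall_open (_hK : K ≠ 0) (A : ℝ) : IsOpen (powBall K A) := by
  have : powBall K A = (fun a : ℂ => ‖a‖ ^ K) ⁻¹' Set.Iio A := rfl
  rw [this]
  exact isOpen_Iio.preimage (by fun_prop)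

theorem zero_mem_powBall (hK : K ≠ 0) (hB : 0 < B) : (0 : ℂ) ∈ powBall K B := by
  show ‖(0 : ℂ)‖ ^ K < B
  rw [norm_zero, zero_pow hK]; exact hB

/-- the slice `b ↦ u (a0, b)` is analytic at `0` -/
theorem slice_analytic (hK : K ≠ 0) (hB : 0 < B) {u : ℂ × ℂ → ℂ}
    (hu : DifferentiableOn ℂ u (powBall K A ×ˢ powBall K B)) {a0 : ℂ} (ha0 : a0 ∈ powBall K A) :
    AnalyticAt ℂ (fun b => u (a0, b)) 0 := by
  have h1 : DifferentiableOn ℂ (fun b => u (a0, b)) (powBall K B) := by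
    intro b hb
    have h2 : DifferentiableAt ℂ u (a0, b) :=
      (hu (a0, b) ⟨ha0, hb⟩).differentiableAt
        (((powBall_open hK A).prod (powBall_open hK B)).mem_nhds ⟨ha0, hb⟩)
    have h3 : DifferentiableAt ℂ (fun b : ℂ => (a0, b)) b := by fun_prop
    exact (h2.comp b h3).differentiableWithinAt
  exact h1.analyticAt ((powBall_open hK B).mem_nhds (zero_mem_powBall hK hB))

/-- **Row E1-FREE.** -/
theorem free_exponent (hK : K ≠ 0) (hB : 0 < B)
    (hζ : ∀ i, DifferentiableOn ℂ (ζ i) (powBall K A ×ˢ powBall K B))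
    (hP : ∀ q ∈ powBall K A ×ˢ powBall K B, P (q.1 ^ K, q.2 ^ K) = ∏ i, (X - C (ζ i q)))
    (hinj : ∀ q ∈ powBall K A ×ˢ powBall K B, q.1 ≠ 0 → q.2 ≠ 0 →
      Function.Injective fun i => ζ i q)
    (hρ : ∀ i, ∀ q ∈ powBall K A ×ˢ powBall K B, ζ i (q.1, omg K * q.2) = ζ (ρ i) q)
    {a0 : ℂ} (ha0 : a0 ∈ powBall K A) (ha00 : a0 ≠ 0) (i : Fin n)
    (hF : AnalyticAt ℂ (fun q : ℂ × ℂ × ℂ => (P (q.1, q.2.1)).eval q.2.2)
      (a0 ^ K, 0, ζ i (a0, 0)))
    (hsm : fderiv ℂ (fun q : ℂ × ℂ × ℂ => (P (q.1, q.2.1)).eval q.2.2)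
      (a0 ^ K, 0, ζ i (a0, 0)) ≠ 0) :
    Function.minimalPeriod ρ i ∣ K ∧ 0 < Function.minimalPeriod ρ i ∧
    (∀ j, ζ j (a0, 0) = ζ i (a0, 0) → ∃ m : ℕ, (ρ ^ m) i = j) ∧
    (∀ j, j ≠ i → (∃ m : ℕ, (ρ ^ m) i = j) →
      analyticOrderAt (fun b => ζ i (a0, b) - ζ j (a0, b)) 0 =
        (K / Function.minimalPeriod ρ i : ℕ)) ∧
    (∀ (p r : ℕ) (u : ℂ × ℂ → ℂ), DifferentiableOn ℂ u (powBall K A ×ˢ powBall K B) →
      u (a0, 0) ≠ 0 →
      (∀ b ∈ powBall K B, (derivative (P (a0 ^ K, b ^ K))).eval (ζ i (a0, b)) =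
        a0 ^ p * b ^ r * u (a0, b)) → r = K - K / Function.minimalPeriod ρ i) := by
  classical
  set F : ℂ × ℂ × ℂ → ℂ := fun q => (P (q.1, q.2.1)).eval q.2.2 with hFdef
  set z0 := ζ i (a0, 0) with hz0
  have h0B := zero_mem_powBall (K := K) hK hB
  have hoA := powBall_open (K := K) hK A
  have hoB := powBall_open (K := K) hK B
  have hg : ∀ j, AnalyticAt ℂ (fun b => ζ j (a0, b)) 0 := fun j =>
    slice_analytic hK hB (hζ j) ha0
  have hω : IsPrimitiveRoot (omg K) K := Complex.isPrimitiveRoot_exp K hK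
  have hρ' : ∀ j, (fun b => ζ j (a0, omg K * b)) =ᶠ[𝓝 0] fun b => ζ (ρ j) (a0, b) := by
    intro j
    filter_upwards [hoB.mem_nhds h0B] with b hb
    exact hρ j (a0, b) ⟨ha0, hb⟩
  have hinj' : ∀ j k, (fun b => ζ j (a0, b)) =ᶠ[𝓝 0] (fun b => ζ k (a0, b)) → j = k := by
    intro j k hjk
    have h1 : ∀ᶠ b in 𝓝[≠] (0 : ℂ), b ∈ powBall K B ∧ ζ j (a0, b) = ζ k (a0, b) ∧ b ≠ 0 := by
      have h2 : ∀ᶠ b in 𝓝[≠] (0 : ℂ), b ≠ 0 := eventually_mem_nhdsWithin
      filter_upwards [nhdsWithin_le_nhds (hoB.mem_nhds h0B), nhdsWithin_le_nhds hjk, h2]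
        with b hb h3 h4
      exact ⟨hb, h3, h4⟩
    obtain ⟨b, hb, hb1, hb0⟩ := h1.exists
    exact hinj (a0, b) ⟨ha0, hb⟩ ha00 hb0 hb1
  -- the polynomial on the slices
  have hFab : ∀ a ∈ powBall K A, ∀ b ∈ powBall K B, ∀ z,
      F (a ^ K, b ^ K, z) = ∏ j, (z - ζ j (a, b)) := by
    intro a ha b hb z
    simp only [hFdef]
    rw [hP (a, b) ⟨ha, hb⟩, eval_prod]
    simp
  have hder : ∀ b ∈ powBall K B, (derivative (P (a0 ^ K, b ^ K))).eval (ζ i (a0, b)) =
      ∏ j ∈ univ.erase i, (ζ i (a0, b) - ζ j (a0, b)) := by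
    intro b hb
    rw [hP (a0, b) ⟨ha0, hb⟩, derivative_prod_finset, eval_finsetSum,
      Finset.sum_eq_single i]
    · rw [eval_mul, eval_prod]
      simp
    · intro k _ hk
      rw [eval_mul, eval_prod]
      rw [Finset.prod_eq_zero (i := i) (Finset.mem_erase.2 ⟨Ne.symm hk, Finset.mem_univ _⟩)
        (by simp), zero_mul]
    · intro h
      exact absurd (Finset.mem_univ i) h
  -- the order of the derivative
  have hlast : Function.minimalPeriod ρ i ∣ K → 0 < Function.minimalPeriod ρ i →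
      (∀ j, ζ j (a0, 0) = ζ i (a0, 0) → ∃ m : ℕ, (ρ ^ m) i = j) →
      (∀ j, j ≠ i → (∃ m : ℕ, (ρ ^ m) i = j) →
      analyticOrderAt (fun b => ζ i (a0, b) - ζ j (a0, b)) 0 =
        (K / Function.minimalPeriod ρ i : ℕ)) →
      (∀ (p r : ℕ) (u : ℂ × ℂ → ℂ), DifferentiableOn ℂ u (powBall K A ×ˢ powBall K B) →
      u (a0, 0) ≠ 0 →
      (∀ b ∈ powBall K B, (derivative (P (a0 ^ K, b ^ K))).eval (ζ i (a0, b)) =
        a0 ^ p * b ^ r * u (a0, b)) → r = K - K / Function.minimalPeriod ρ i) := by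
    intro hdv hep hS hdif p r u hu hu0 hur
    set e := Function.minimalPeriod ρ i with he
    have h1 : analyticOrderAt (fun b => ∏ j ∈ univ.erase i, (ζ i (a0, b) - ζ j (a0, b))) 0 =
        (r : ℕ) := by
      have han : AnalyticAt ℂ (fun b => ∏ j ∈ univ.erase i, (ζ i (a0, b) - ζ j (a0, b))) 0 :=
        Finset.analyticAt_fun_prod _ fun j _ => (hg i).sub (hg j)
      rw [han.analyticOrderAt_eq_natCast]
      refine ⟨fun b => a0 ^ p * u (a0, b), analyticAt_const.mul (slice_analytic hK hB hu ha0),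
        mul_ne_zero (pow_ne_zero p ha00) hu0, ?_⟩
      filter_upwards [hoB.mem_nhds h0B] with b hb
      rw [← hder b hb, hur b hb, sub_zero, smul_eq_mul]; ring
    rw [order_prod (univ.erase i) (fun j b => ζ i (a0, b) - ζ j (a0, b))
      (fun j _ => (hg i).sub (hg j))] at h1
    -- split along the orbit
    set Orb : Finset (Fin n) := univ.filter (fun j => ∃ m : ℕ, (ρ ^ m) i = j) with hOrb
    have hOcard : Orb.card = e := by
      have : Orb = (Finset.range e).image (fun m => (ρ ^ m) i) := by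
        ext j
        simp only [hOrb, Finset.mem_filter, Finset.mem_univ, true_and, Finset.mem_image,
          Finset.mem_range]
        constructor
        · rintro ⟨m, h⟩
          refine ⟨m % e, Nat.mod_lt _ hep, ?_⟩
          rw [← Equiv.Perm.iterate_eq_pow] at h ⊢
          rw [← h, he, Function.iterate_mod_minimalPeriod_eq]
        · rintro ⟨m, _, h⟩; exact ⟨m, h⟩
      rw [this, Finset.card_image_of_injOn, Finset.card_range]
      intro m hm m' hm' hmm
      simp only [Finset.coe_range, Set.mem_Iio] at hm hm'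
      simp only [← Equiv.Perm.iterate_eq_pow] at hmm
      exact Function.iterate_injOn_Iio_minimalPeriod hm hm' hmm
    have h2 : ∀ j ∈ univ.erase i, analyticOrderAt (fun b => ζ i (a0, b) - ζ j (a0, b)) 0 =
        if j ∈ Orb then ((K / e : ℕ) : ℕ∞) else 0 := by
      intro j hj
      have hji : j ≠ i := (Finset.mem_erase.1 hj).1
      split_ifs with h
      · exact hdif j hji (by simpa [hOrb] using h)
      · rw [analyticOrderAt_eq_zero]
        right
        intro h3
        apply h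
        have := hS j (sub_eq_zero.1 h3).symm
        simpa [hOrb] using this
    rw [Finset.sum_congr rfl h2, ← Finset.sum_filter, Finset.sum_const] at h1
    have hi : i ∈ Orb := by
      simp only [hOrb, Finset.mem_filter, Finset.mem_univ, true_and]
      exact ⟨0, by simp⟩
    have h3 : (univ.erase i).filter (fun j => j ∈ Orb) = Orb.erase i := by
      ext j; simp [and_comm]
    rw [h3, Finset.card_erase_of_mem hi, hOcard, nsmul_eq_mul] at h1
    have h4 : (e - 1) * (K / e) = r := by exact_mod_cast h1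
    obtain ⟨κ, hκ⟩ := hdv
    rw [hκ, Nat.mul_div_cancel_left κ hep] at h4 ⊢
    rw [← h4, Nat.sub_mul, one_mul]
  by_cases hone : ∀ j, ζ j (a0, 0) = z0 → j = i
  · -- unramified
    have hρi : ρ i = i := by
      apply hone
      have := (hρ' i).self_of_nhds
      simp only [mul_zero] at this
      rw [← this]
    have hper : Function.minimalPeriod ρ i = 1 := by
      rw [Function.minimalPeriod_eq_one_iff_isFixedPt]; exact hρi
    have hor : ∀ m : ℕ, (ρ ^ m) i = i := by
      intro m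
      rw [← Equiv.Perm.iterate_eq_pow]
      exact Function.iterate_fixed hρi m
    have c1 : Function.minimalPeriod ρ i ∣ K := by rw [hper]; exact one_dvd K
    have c2 : 0 < Function.minimalPeriod ρ i := by rw [hper]; exact one_pos
    have c3 : ∀ j, ζ j (a0, 0) = ζ i (a0, 0) → ∃ m : ℕ, (ρ ^ m) i = j := by
      intro j hj
      exact ⟨0, by rw [hone j hj]; simp⟩
    have c4 : ∀ j, j ≠ i → (∃ m : ℕ, (ρ ^ m) i = j) →
      analyticOrderAt (fun b => ζ i (a0, b) - ζ j (a0, b)) 0 =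
        (K / Function.minimalPeriod ρ i : ℕ) := by
      rintro j hji ⟨m, rfl⟩
      exact absurd (hor m) hji
    exact ⟨c1, c2, c3, c4, hlast c1 c2 c3 c4⟩
  · push Not at hone
    obtain ⟨k, hk, hki⟩ := hone
    -- the partial derivatives
    have hFd : HasFDerivAt F (fderiv ℂ F (a0 ^ K, 0, z0)) (a0 ^ K, 0, z0) :=
      hF.differentiableAt.hasFDerivAt
    have hdz : fderiv ℂ F (a0 ^ K, 0, z0) (0, 0, 1) = 0 := by
      have hc : HasDerivAt (fun z : ℂ => ((a0 ^ K, 0, z) : ℂ × ℂ × ℂ)) (0, 0, 1) z0 :=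
        (hasDerivAt_const z0 _).prodMk ((hasDerivAt_const z0 _).prodMk (hasDerivAt_id z0))
      have h1 := hFd.comp_hasDerivAt z0 hc
      have h2 : (F ∘ fun z : ℂ => ((a0 ^ K, 0, z) : ℂ × ℂ × ℂ)) =
          fun z => ∏ j, (z - ζ j (a0, 0)) := by
        funext z
        have := hFab a0 ha0 0 h0B z
        rw [zero_pow hK] at this
        exact this
      rw [h2] at h1
      have h3 := hasDerivAt_prod_zero (f := fun j z => z - ζ j (a0, 0)) (x := z0)
        (fun j => by fun_prop) (Ne.symm hki) (by simp [hz0]) (by simp [hk])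
      exact h1.unique h3
    have hds : fderiv ℂ F (a0 ^ K, 0, z0) (1, 0, 0) = 0 := by
      have hc : HasDerivAt (fun a : ℂ => ((a ^ K, 0, z0) : ℂ × ℂ × ℂ))
          (K * a0 ^ (K - 1), 0, 0) a0 :=
        (hasDerivAt_pow K a0).prodMk ((hasDerivAt_const a0 _).prodMk (hasDerivAt_const a0 _))
      have h1 := hFd.comp_hasDerivAt a0 hc
      have h2 : (F ∘ fun a : ℂ => ((a ^ K, 0, z0) : ℂ × ℂ × ℂ)) =ᶠ[𝓝 a0]
          fun a => ∏ j, (z0 - ζ j (a, 0)) := by
        filter_upwards [hoA.mem_nhds ha0] with a ha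
        have := hFab a ha 0 h0B z0
        rw [zero_pow hK] at this
        exact this
      have h3 := hasDerivAt_prod_zero (f := fun j a => z0 - ζ j (a, 0)) (x := a0)
        (fun j => by
          have h4 : DifferentiableAt ℂ (ζ j) (a0, 0) :=
            (hζ j (a0, 0) ⟨ha0, h0B⟩).differentiableAt ((hoA.prod hoB).mem_nhds ⟨ha0, h0B⟩)
          have h5 : DifferentiableAt ℂ (fun a : ℂ => (a, (0 : ℂ))) a0 := by fun_prop
          exact (differentiableAt_const z0).sub (h4.comp a0 h5))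
        (Ne.symm hki) (by simp [hz0]) (by simp [hk])
      have h6 := h1.unique (h3.congr_of_eventuallyEq h2)
      have h7 : ((K * a0 ^ (K - 1), 0, 0) : ℂ × ℂ × ℂ) = (K * a0 ^ (K - 1)) • (1, 0, 0) := by
        simp
      rw [h7, map_smul, smul_eq_mul] at h6
      rcases mul_eq_zero.1 h6 with h | h
      · exfalso
        rcases mul_eq_zero.1 h with h | h
        · exact hK (by exact_mod_cast h)
        · exact pow_ne_zero _ ha00 h
      · exact h
    have hdt : fderiv ℂ F (a0 ^ K, 0, z0) (0, 1, 0) ≠ 0 := by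
      intro h
      apply hsm
      refine ContinuousLinearMap.ext fun v => ?_
      have hv : v = v.1 • ((1, 0, 0) : ℂ × ℂ × ℂ) + v.2.1 • ((0, 1, 0) : ℂ × ℂ × ℂ) +
          v.2.2 • ((0, 0, 1) : ℂ × ℂ × ℂ) := by
        ext <;> simp
      rw [hv, map_add, map_add, map_smul, map_smul, map_smul, hds, h, hdz]
      simp
    -- the slice in t
    set φ : ℂ → ℂ := fun t => F (a0 ^ K, t, z0) with hφ
    have hφa : AnalyticAt ℂ φ 0 := by
      have hc : AnalyticAt ℂ (fun t : ℂ => ((a0 ^ K, t, z0) : ℂ × ℂ × ℂ)) 0 :=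
        analyticAt_const.prod (analyticAt_id.prod analyticAt_const)
      exact AnalyticAt.comp (g := F) (f := fun t : ℂ => ((a0 ^ K, t, z0) : ℂ × ℂ × ℂ)) hF hc
    have hφd : deriv φ 0 ≠ 0 := by
      have hc : HasDerivAt (fun t : ℂ => ((a0 ^ K, t, z0) : ℂ × ℂ × ℂ)) (0, 1, 0) 0 :=
        (hasDerivAt_const (0 : ℂ) _).prodMk ((hasDerivAt_id (0 : ℂ)).prodMk
          (hasDerivAt_const (0 : ℂ) _))
      have h1 := hFd.comp_hasDerivAt (0 : ℂ) hc
      have h2 : deriv φ 0 = fderiv ℂ F (a0 ^ K, 0, z0) (0, 1, 0) := h1.deriv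
      rw [h2]; exact hdt
    have hφ0 : φ 0 = 0 := by
      have := hFab a0 ha0 0 h0B z0
      rw [zero_pow hK] at this
      simp only [hφ]
      rw [this]
      exact Finset.prod_eq_zero (mem_univ i) (by simp [hz0])
    have hφ1 : analyticOrderAt φ 0 = (1 : ℕ) := by
      have hne : analyticOrderAt φ 0 ≠ 0 := analyticOrderAt_ne_zero.2 ⟨hφa, hφ0⟩
      have h1 := hφa.analyticOrderAt_deriv_add_one
      have h2 : (fun x => φ x - φ 0) = φ := by funext x; rw [hφ0, sub_zero]
      rw [h2] at h1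
      have h3 : analyticOrderAt (deriv φ) 0 = 0 := by
        rw [analyticOrderAt_eq_zero]; exact Or.inr hφd
      rw [h3, zero_add] at h1
      rw [← h1]; rfl
    obtain ⟨v, hv, hv0, hvφ⟩ := hφa.analyticOrderAt_eq_natCast.1 hφ1
    have hor : analyticOrderAt (fun b => ∏ j, (z0 - ζ j (a0, b))) 0 = K := by
      have hpr : AnalyticAt ℂ (fun b => ∏ j, (z0 - ζ j (a0, b))) 0 :=
        Finset.analyticAt_fun_prod _ fun j _ => analyticAt_const.sub (hg j)
      rw [hpr.analyticOrderAt_eq_natCast]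
      have hlim : Tendsto (fun b : ℂ => b ^ K) (𝓝 0) (𝓝 0) := by
        have : Continuous fun b : ℂ => b ^ K := by fun_prop
        have h := this.tendsto 0
        rwa [zero_pow hK] at h
      refine ⟨fun b => v (b ^ K), ?_, ?_, ?_⟩
      · have hv' : AnalyticAt ℂ v ((fun b : ℂ => b ^ K) 0) := by
          simpa [zero_pow hK] using hv
        exact AnalyticAt.comp (g := v) (f := fun b : ℂ => b ^ K) (x := 0) hv' (by fun_prop)
      · simpa [zero_pow hK] using hv0
      · filter_upwards [hlim.eventually hvφ, hoB.mem_nhds h0B] with b h1 hb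
        rw [sub_zero, pow_one] at h1
        rw [← hFab a0 ha0 b hb z0, sub_zero]
        exact h1
    obtain ⟨c1, c2, c3, c4⟩ := core hK hω (g := fun j b => ζ j (a0, b)) hg hρ' hinj' i hor
    exact ⟨c1, c2, c3, c4, hlast c1 c2 c3 c4⟩

end Vale.Agent.P298.H400
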