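import Vale.Agent.P298.H400.Free2
import Vale.Agent.P298.H707.JT

/-!
Row E1-FREE2: the canonical equation at the free places of the model of the surface over the tree
of point blow-ups.
-/

open Set Filter Topology Metric Polynomial Vale.Agent.P298 Vale.Agent.P298.H379
open Vale.Agent.P298.H928 Vale.Agent.P298.H707
open Vale.Agent.P298.H983 (omg powBall)

noncomputable section

namespace Vale.Agent.P298.H400

/-! ### exponents -/

theorem slice1_tendsto : Tendsto (fun b : ℂ => ((0 : ℂ), b)) (𝓝 0) (𝓝 (0 : ℂ × ℂ)) :=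
  (Continuous.prodMk_right (0 : ℂ)).continuousAt

/-- the first exponent is determined. -/
theorem MonU_fst_unique {g : ℂ × ℂ → ℂ} {i j i' j' : ℕ} (h : MonU g i j) (h' : MonU g i' j') :
    i = i' := by
  obtain ⟨u, hu, hu0, hg⟩ := h
  obtain ⟨u', hu', hu0', hg'⟩ := h'
  have h1 : ∀ᶠ q in 𝓝 (0 : ℂ × ℂ), ∀ᶠ q' in 𝓝 q, g q' = q'.1 ^ i * q'.2 ^ j * u q' :=
    hg.eventually_nhds
  have h2 : ∀ᶠ q in 𝓝 (0 : ℂ × ℂ), ∀ᶠ q' in 𝓝 q, g q' = q'.1 ^ i' * q'.2 ^ j' * u' q' :=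
    hg'.eventually_nhds
  have h3 := slice1_tendsto.eventually (h1.and (h2.and ((hu.eventually_analyticAt.and
    (hu.continuousAt.eventually_ne hu0)).and (hu'.eventually_analyticAt.and
    (hu'.continuousAt.eventually_ne hu0')))))
  have h4 : ∀ᶠ b : ℂ in 𝓝[≠] 0, b ≠ 0 := eventually_mem_nhdsWithin
  obtain ⟨b, ⟨e1, e2, ⟨e3, e4⟩, e5, e6⟩, hb⟩ :=
    ((h3.filter_mono nhdsWithin_le_nhds).and h4).exists
  have hc : Tendsto (fun a : ℂ => (a, b)) (𝓝 0) (𝓝 ((0 : ℂ), b)) :=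
    (Continuous.prodMk_left b).continuousAt
  have hline : AnalyticAt ℂ (fun a : ℂ => (a, b)) 0 := analyticAt_id.prod analyticAt_const
  have o1 : analyticOrderAt (fun a => g (a, b)) 0 = (i : ℕ) := by
    have han : AnalyticAt ℂ (fun a => a ^ i * b ^ j * u (a, b)) 0 :=
      ((analyticAt_id.pow i).mul analyticAt_const).mul (e3.comp_of_eq hline rfl)
    have hcg : (fun a => g (a, b)) =ᶠ[𝓝 0] fun a => a ^ i * b ^ j * u (a, b) := hc.eventually e1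
    rw [analyticOrderAt_congr hcg, han.analyticOrderAt_eq_natCast]
    refine ⟨fun a => b ^ j * u (a, b), analyticAt_const.mul (e3.comp_of_eq hline rfl),
      mul_ne_zero (pow_ne_zero j hb) e4, .of_forall fun a => ?_⟩
    simp only [sub_zero, smul_eq_mul]; ring
  have o2 : analyticOrderAt (fun a => g (a, b)) 0 = (i' : ℕ) := by
    have han : AnalyticAt ℂ (fun a => a ^ i' * b ^ j' * u' (a, b)) 0 :=
      ((analyticAt_id.pow i').mul analyticAt_const).mul (e5.comp_of_eq hline rfl)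
    have hcg : (fun a => g (a, b)) =ᶠ[𝓝 0] fun a => a ^ i' * b ^ j' * u' (a, b) :=
      hc.eventually e2
    rw [analyticOrderAt_congr hcg, han.analyticOrderAt_eq_natCast]
    refine ⟨fun a => b ^ j' * u' (a, b), analyticAt_const.mul (e5.comp_of_eq hline rfl),
      mul_ne_zero (pow_ne_zero j' hb) e6, .of_forall fun a => ?_⟩
    simp only [sub_zero, smul_eq_mul]; ring
  exact_mod_cast o1.symm.trans o2

theorem MonU_unique {g : ℂ × ℂ → ℂ} {i j i' j' : ℕ} (h : MonU g i j) (h' : MonU g i' j') :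
    i = i' ∧ j = j' :=
  ⟨MonU_fst_unique h h', MonU_fst_unique h.swp h'.swp⟩

/-! ### germ form -/

variable {f : (Fin 3 → ℂ) → ℂ} {n : ℕ} {P : ℂ × ℂ → ℂ[X]} {v : ℂ × (ℂ × ℂ) → ℂ}
  {Θ : ℂ × ℂ → ℂ × ℂ} {K : ℕ} {ζ : Fin n → ℂ × ℂ → ℂ} {σ ρ : Equiv.Perm (Fin n)}

theorem powBall_pow (hK : K ≠ 0) {δ : ℝ} (hδ : 0 < δ) : powBall K (δ ^ K) = ball (0 : ℂ) δ := by
  ext a
  rw [mem_ball_zero_iff]
  exact pow_lt_pow_iff_left₀ (norm_nonneg a) hδ.le hK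

/-- the germ form of the free exponent. -/
theorem CR_free (C : CR P Θ n K ζ σ ρ) (i : Fin n)
    (hsm : ∃ᶠ a in 𝓝[≠] (0 : ℂ),
      AnalyticAt ℂ (fun q : ℂ × ℂ × ℂ => (P (Θ (q.1, q.2.1))).eval q.2.2)
        (a ^ K, 0, ζ i (a, 0)) ∧
      fderiv ℂ (fun q : ℂ × ℂ × ℂ => (P (Θ (q.1, q.2.1))).eval q.2.2)
        (a ^ K, 0, ζ i (a, 0)) ≠ 0) {p r : ℕ}
    (hder : MonU (fun q => (derivative (P (Θ (q.1 ^ K, q.2 ^ K)))).eval (ζ i q)) p r) :
    Function.minimalPeriod ρ i ∣ K ∧ 0 < Function.minimalPeriod ρ i ∧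
      r = K - K / Function.minimalPeriod ρ i := by
  obtain ⟨u, hu, hu0, hdu⟩ := hder
  have hhol : ∀ᶠ q in 𝓝 (0 : ℂ × ℂ), ∀ l, AnalyticAt ℂ (ζ l) q :=
    eventually_all.2 fun l => (C.hol l).eventually_analyticAt
  obtain ⟨δ, hδ, hball⟩ := Metric.eventually_nhds_iff_ball.1 (hhol.and (C.prod.and (C.inj.and
    (C.mon2.and (hdu.and (hu.eventually_analyticAt.and (hu.continuousAt.eventually_ne hu0)))))))
  have hmem : ∀ q : ℂ × ℂ, q ∈ powBall K (δ ^ K) ×ˢ powBall K (δ ^ K) → q ∈ ball (0 : ℂ × ℂ) δ := by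
    intro q hq
    rw [powBall_pow C.hK hδ] at hq
    rw [mem_ball_zero_iff, Prod.norm_def]
    exact max_lt (by simpa using hq.1) (by simpa using hq.2)
  have hb1 : ∀ᶠ a in 𝓝[≠] (0 : ℂ), a ∈ ball (0 : ℂ) δ ∧ a ≠ 0 := by
    have h2 : ∀ᶠ b : ℂ in 𝓝[≠] 0, b ≠ 0 := eventually_mem_nhdsWithin
    have h3 : ∀ᶠ a in 𝓝 (0 : ℂ), a ∈ ball (0 : ℂ) δ := ball_mem_nhds (0 : ℂ) hδ
    exact (h3.filter_mono nhdsWithin_le_nhds).and h2
  obtain ⟨a0, ⟨h1, h2⟩, h3, h4⟩ := (hsm.and_eventually hb1).exists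
  have ha0 : a0 ∈ powBall K (δ ^ K) := by rw [powBall_pow C.hK hδ]; exact h3
  have hB : 0 < δ ^ K := pow_pos hδ K
  obtain ⟨c1, c2, -, -, c5⟩ := free_exponent (P := fun q => P (Θ q)) (A := δ ^ K) (B := δ ^ K)
    (ζ := ζ) (ρ := ρ) C.hK hB
    (fun l q hq => (((hball q (hmem q hq)).1 l).differentiableAt).differentiableWithinAt)
    (fun q hq => (hball q (hmem q hq)).2.1)
    (fun q hq => (hball q (hmem q hq)).2.2.1)
    (fun l q hq => (hball q (hmem q hq)).2.2.2.1 l) ha0 h4 i h1 h2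
  refine ⟨c1, c2, c5 p r u (fun q hq =>
    (hball q (hmem q hq)).2.2.2.2.2.1.differentiableAt.differentiableWithinAt) ?_ ?_⟩
  · exact (hball (a0, 0) (hmem _ ⟨ha0, by rw [powBall_pow C.hK hδ]; exact mem_ball_self hδ⟩)).2.2.2.2.2.2
  · intro b hb
    exact (hball (a0, b) (hmem _ ⟨ha0, hb⟩)).2.2.2.2.1

/-! ### smoothness -/

theorem fderiv_ne_zero_of_pd {f : (Fin 3 → ℂ) → ℂ} {x : Fin 3 → ℂ} {j : Fin 3}
    (h : pd j f x ≠ 0) : fderiv ℂ f x ≠ 0 := by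
  intro h0
  apply h
  rw [pd, h0]
  rfl

/-- the map `(s, t, z) ↦ (Θ (s, t), z)` is a submersion where the Jacobian is not zero. -/
theorem ptTheta_surj {p : ℂ × ℂ × ℂ} (hΘ : DifferentiableAt ℂ Θ (p.1, p.2.1))
    (hJ : jacP Θ (p.1, p.2.1) ≠ 0) :
    DifferentiableAt ℂ (fun q : ℂ × ℂ × ℂ => pt (Θ (q.1, q.2.1)) q.2.2) p ∧
    Function.Surjective (fderiv ℂ (fun q : ℂ × ℂ × ℂ => pt (Θ (q.1, q.2.1)) q.2.2) p) := by
  have hl : HasFDerivAt (fun q : ℂ × ℂ × ℂ => (q.1, q.2.1))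
      ((ContinuousLinearMap.fst ℂ ℂ (ℂ × ℂ)).prod ((ContinuousLinearMap.fst ℂ ℂ ℂ).comp
        (ContinuousLinearMap.snd ℂ ℂ (ℂ × ℂ)))) p :=
    hasFDerivAt_fst.prodMk (hasFDerivAt_fst.comp p hasFDerivAt_snd)
  have h1 : HasFDerivAt (fun q : ℂ × ℂ × ℂ => Θ (q.1, q.2.1)) _ p :=
    HasFDerivAt.comp (g := Θ) p hΘ.hasFDerivAt hl
  have h2 : HasFDerivAt (fun q : ℂ × ℂ × ℂ => (Θ (q.1, q.2.1)).1) _ p :=
    (hasFDerivAt_fst (𝕜 := ℂ) (E := ℂ) (F := ℂ)).comp p h1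
  have h3 : HasFDerivAt (fun q : ℂ × ℂ × ℂ => (Θ (q.1, q.2.1)).2) _ p :=
    (hasFDerivAt_snd (𝕜 := ℂ) (E := ℂ) (F := ℂ)).comp p h1
  have h4 : HasFDerivAt (fun q : ℂ × ℂ × ℂ => q.2.2)
      ((ContinuousLinearMap.snd ℂ ℂ ℂ).comp (ContinuousLinearMap.snd ℂ ℂ (ℂ × ℂ))) p :=
    hasFDerivAt_snd.comp p hasFDerivAt_snd
  set g : Fin 3 → ℂ × ℂ × ℂ → ℂ := ![fun q => (Θ (q.1, q.2.1)).1,
    fun q => (Θ (q.1, q.2.1)).2, fun q => q.2.2] with hg
  have h5 : HasFDerivAt (fun q : ℂ × ℂ × ℂ => pt (Θ (q.1, q.2.1)) q.2.2)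
      (ContinuousLinearMap.pi fun i => fderiv ℂ (g i) p) p := by
    rw [hasFDerivAt_pi]
    intro i
    fin_cases i
    · exact h2.differentiableAt.hasFDerivAt
    · exact h3.differentiableAt.hasFDerivAt
    · exact h4.differentiableAt.hasFDerivAt
  refine ⟨h5.differentiableAt, ?_⟩
  rw [h5.fderiv]
  have e0 : fderiv ℂ (g 0) p = _ := h2.fderiv
  have e1 : fderiv ℂ (g 1) p = _ := h3.fderiv
  have e2 : fderiv ℂ (g 2) p = _ := h4.fderiv
  intro w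
  set L := fderiv ℂ Θ (p.1, p.2.1) with hL
  set D := jacP Θ (p.1, p.2.1) with hD
  have hDe : D = (L (1, 0)).1 * (L (0, 1)).2 - (L (0, 1)).1 * (L (1, 0)).2 := rfl
  have hLv : ∀ x y : ℂ, L (x, y) = x • L (1, 0) + y • L (0, 1) := by
    intro x y
    rw [← map_smul, ← map_smul, ← map_add]
    congr 1
    simp
  refine ⟨(((L (0, 1)).2 * w 0 - (L (0, 1)).1 * w 1) / D,
    ((L (1, 0)).1 * w 1 - (L (1, 0)).2 * w 0) / D, w 2), ?_⟩
  funext i
  fin_cases i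
  · show fderiv ℂ (g 0) p _ = w 0
    rw [e0]
    simp only [ContinuousLinearMap.comp_apply, ContinuousLinearMap.coe_fst',
      ContinuousLinearMap.prod_apply, ContinuousLinearMap.coe_snd']
    rw [hLv]
    simp only [Prod.fst_add, Prod.smul_fst, smul_eq_mul]
    field_simp
    rw [hDe]; ring
  · show fderiv ℂ (g 1) p _ = w 1
    rw [e1]
    simp only [ContinuousLinearMap.comp_apply, ContinuousLinearMap.coe_fst',
      ContinuousLinearMap.prod_apply, ContinuousLinearMap.coe_snd']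
    rw [hLv]
    simp only [Prod.snd_add, Prod.smul_snd, smul_eq_mul]
    field_simp
    rw [hDe]; ring
  · show fderiv ℂ (g 2) p _ = w 2
    rw [e2]
    rfl

/-- the canonical exponent at a free place, for a model of the surface. -/
theorem Model_free {κ : Type*} {Θ : κ → ℂ × ℂ → ℂ × ℂ} {K : κ → ℕ}
    {ζ : κ → Fin n → ℂ × ℂ → ℂ} {σ ρ : κ → Equiv.Perm (Fin n)} (M : Model f Θ n P v K ζ σ ρ)
    {μ : ℕ} (hμ : Milnor f μ) (i : κ) (l : Fin n)
    (hne : ∀ᶠ s in 𝓝[≠] (0 : ℂ), Θ i (s, 0) ≠ 0) {a : ℕ} (hJ : MonU (jacP (Θ i)) a 0)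
    {c d : ℕ} (hd : MonU (fun q => pd 2 f (M.ch i l q)) c d) :
    Function.minimalPeriod (ρ i) l ∣ K i ∧ 0 < Function.minimalPeriod (ρ i) l ∧
      d = K i - K i / Function.minimalPeriod (ρ i) l := by
  have hK := (M.C i).hK
  -- the derivative of the polynomial
  have hder : MonU (fun q => (derivative (P (Θ i (q.1 ^ K i, q.2 ^ K i)))).eval (ζ i l q)) c d := by
    obtain ⟨u, hu, hu0, h⟩ := hd
    have ht := tendsto_zp hK (M.an i) (M.zero i) ((M.C i).hol l) ((M.C i).zero l)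
    have hvan : AnalyticAt ℂ (fun q : ℂ × ℂ => v (ζ i l q, Θ i (q.1 ^ K i, q.2 ^ K i))) 0 := by
      refine AnalyticAt.comp_of_eq (g := v)
        (f := fun q : ℂ × ℂ => (ζ i l q, Θ i (q.1 ^ K i, q.2 ^ K i))) M.W.va
        (((M.C i).hol l).prod ((M.an i).comp_of_eq (analyticAt_powK (K i) 0) (powK_zero hK))) ?_
      have h1 : Θ i ((0 : ℂ × ℂ).1 ^ K i, (0 : ℂ × ℂ).2 ^ K i) = 0 := by
        rw [powK_zero hK, M.zero]
      simp only [h1, (M.C i).zero l]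
      rfl
    refine ⟨fun q => u q * v (ζ i l q, Θ i (q.1 ^ K i, q.2 ^ K i)), hu.mul hvan,
      mul_ne_zero hu0 ?_, ?_⟩
    · have h1 : Θ i ((0 : ℂ × ℂ).1 ^ K i, (0 : ℂ × ℂ).2 ^ K i) = 0 := by
        rw [powK_zero hK, M.zero]
      rw [h1, (M.C i).zero l]
      exact M.W.v0
    · filter_upwards [h, ht.eventually (M.W.pd_eq M.hf), M.f_ch i l] with q h1 h2 h3
      rw [← h2 h3]
      have h4 : pt (Θ i (q.1 ^ K i, q.2 ^ K i)) (ζ i l q) = M.ch i l q := rfl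
      rw [h4, h1]; ring
  refine CR_free (M.C i) l (Filter.Eventually.frequently ?_) hder
  -- smoothness
  obtain ⟨u, hu, hu0, hJu⟩ := hJ
  have hline : Tendsto (fun a : ℂ => ((a, (0 : ℂ)) : ℂ × ℂ)) (𝓝[≠] 0) (𝓝 0) :=
    ((Continuous.prodMk_left (0 : ℂ)).continuousAt.tendsto).mono_left nhdsWithin_le_nhds
  have hpow : Tendsto (fun a : ℂ => a ^ K i) (𝓝[≠] 0) (𝓝[≠] 0) := by
    refine tendsto_nhdsWithin_iff.2 ⟨?_, ?_⟩
    · have : Continuous fun a : ℂ => a ^ K i := by fun_prop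
      have h := (this.tendsto 0).mono_left (nhdsWithin_le_nhds (s := {(0 : ℂ)}ᶜ))
      rwa [zero_pow hK] at h
    · have h2 : ∀ᶠ b : ℂ in 𝓝[≠] 0, b ≠ 0 := eventually_mem_nhdsWithin
      filter_upwards [h2] with b hb
      exact pow_ne_zero _ hb
  have hz : Tendsto (fun a : ℂ => ((ζ i l (a, 0), Θ i (a ^ K i, 0)) : ℂ × (ℂ × ℂ))) (𝓝[≠] 0)
      (𝓝 0) := by
    have ht := (tendsto_zp hK (M.an i) (M.zero i) ((M.C i).hol l) ((M.C i).zero l)).comp hline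
    refine ht.congr fun a => ?_
    simp [zero_pow hK]
  have hf1 : ∀ᶠ z : ℂ × (ℂ × ℂ) in 𝓝 0, AnalyticAt ℂ f (pt z.2 z.1) ∧
      ((∀ j, pd j f (pt z.2 z.1) = 0) → pt z.2 z.1 = 0) := by
    have hc : Tendsto (fun z : ℂ × (ℂ × ℂ) => pt z.2 z.1) (𝓝 0) (𝓝 0) := by
      have h9 := (analyticAt_ptz 0).continuousAt.tendsto
      have : pt (0 : ℂ × (ℂ × ℂ)).2 (0 : ℂ × (ℂ × ℂ)).1 = 0 := pt_zero
      rwa [this] at h9
    exact (hc.eventually (AnalyticAt.eventually_analyticAt M.hf)).and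
      (hc.eventually (crit_isolated M.hf hμ))
  have h0 : ∀ᶠ b : ℂ in 𝓝[≠] 0, b ≠ 0 := eventually_mem_nhdsWithin
  filter_upwards [h0, (hline.comp hpow).eventually ((M.an i).eventually_analyticAt.and
      (hJu.and (hu.continuousAt.eventually_ne hu0))), hpow.eventually hne,
    hz.eventually (hf1.and ((M.W.fac.eventually_nhds).and (M.W.va.eventually_analyticAt.and
      (M.W.va.continuousAt.eventually_ne M.W.v0)))), hline.eventually (M.f_ch i l)]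
    with a g0 g1 g2 g3 g4
  obtain ⟨g1a, g1b, g1c⟩ := g1
  obtain ⟨⟨g3a, g3b⟩, g3c, g3d, g3e⟩ := g3
  simp only [Function.comp_apply] at g1a g1b g1c
  have hJ0 : jacP (Θ i) (a ^ K i, 0) ≠ 0 := by
    rw [g1b]
    simp only [pow_zero, mul_one]
    exact mul_ne_zero (pow_ne_zero _ (pow_ne_zero _ g0)) g1c
  set p : ℂ × ℂ × ℂ := (a ^ K i, 0, ζ i l (a, 0)) with hp
  set Φ : ℂ × ℂ × ℂ → Fin 3 → ℂ := fun q => pt (Θ i (q.1, q.2.1)) q.2.2 with hΦ
  set Ψ : ℂ × ℂ × ℂ → ℂ × (ℂ × ℂ) := fun q => (q.2.2, Θ i (q.1, q.2.1)) with hΨ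
  have hlin : AnalyticAt ℂ (fun q : ℂ × ℂ × ℂ => (q.1, q.2.1)) p :=
    analyticAt_fst.prod (analyticAt_fst.comp_of_eq analyticAt_snd rfl)
  have hΘp : AnalyticAt ℂ (fun q : ℂ × ℂ × ℂ => Θ i (q.1, q.2.1)) p :=
    AnalyticAt.comp_of_eq (g := Θ i) (f := fun q : ℂ × ℂ × ℂ => (q.1, q.2.1)) g1a hlin rfl
  have hΨa : AnalyticAt ℂ Ψ p :=
    (analyticAt_snd.comp_of_eq analyticAt_snd rfl).prod hΘp
  have hΦa : AnalyticAt ℂ Φ p := (analyticAt_ptz (Ψ p)).comp hΨa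
  have hfac : (fun q : ℂ × ℂ × ℂ => (P (Θ i (q.1, q.2.1))).eval q.2.2) =ᶠ[𝓝 p]
      fun q => f (Φ q) * v (Ψ q) := by
    have h1 := hΨa.continuousAt.tendsto.eventually g3c
    filter_upwards [h1] with q hq
    exact hq.symm
  have hva : AnalyticAt ℂ (fun q => v (Ψ q)) p := AnalyticAt.comp_of_eq (g := v) g3d hΨa rfl
  have hfa : AnalyticAt ℂ (fun q => f (Φ q)) p := AnalyticAt.comp_of_eq (g := f) g3a hΦa rfl
  have hf0 : f (Φ p) = 0 := by
    have h1 : Φ p = M.ch i l (a, 0) := by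
      show pt (Θ i (a ^ K i, 0)) (ζ i l (a, 0)) = pt (Θ i (a ^ K i, 0 ^ K i)) (ζ i l (a, 0))
      rw [zero_pow hK]
    rw [h1]; exact g4
  have hx0 : Φ p ≠ 0 := by
    intro h1
    apply g2
    have e0 := congrFun h1 0
    have e1 := congrFun h1 1
    exact Prod.ext e0 e1
  have hpd : ∃ j, pd j f (Φ p) ≠ 0 := by
    by_contra hcon
    push Not at hcon
    exact hx0 (g3b hcon)
  obtain ⟨j, hj⟩ := hpd
  obtain ⟨hd1, hd2⟩ := ptTheta_surj (Θ := Θ i) (p := p) g1a.differentiableAt hJ0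
  refine ⟨?_, ?_⟩
  · exact (hfa.mul hva).congr hfac.symm
  · exact fderiv_ne_zero_of_unit_comp hfac hf0 g3e g3a.differentiableAt (fderiv_ne_zero_of_pd hj)
      hd1 hd2 hva.differentiableAt

/-! ### the tree -/

section tree

variable {T : Tree fun p => p.1 * disc n P p} {ζ : PlT T → Fin n → ℂ × ℂ → ℂ}
  {σ ρ : PlT T → Equiv.Perm (Fin n)}

/-- the Jacobian of the chart has no factor along a curve which is not contracted. -/
theorem jac_free {i : PlT T} (hi : i.2 :: i.1.1 ∉ T.C) (he : ¬ exc (i.2 :: i.1.1)) :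
    ∃ a, MonU (jacP (ThT T i)) a 0 := by
  obtain ⟨a, j, V, hV, hV0, hJ, hj, -⟩ := jac_psi (i.2 :: i.1.1)
  have hj0 : j = 0 := by
    by_contra h
    exact he (hj (Nat.pos_of_ne_zero h))
  subst hj0
  have h1 : T.Th i.1 i.2 = fun q => psi (i.2 :: i.1.1)
      (q.1, q.2 + phi (fun p => p.1 * disc n P p) (i.2 :: i.1.1) q.1) :=
    funext (T.Th_of_notMem hi)
  have hφ := T.analyticAt_phi i.1.2 hi
  have hφ0 := T.phi_zero i.1.2 hi
  refine ⟨a, fun q => V (q.1, q.2 + phi (fun p => p.1 * disc n P p) (i.2 :: i.1.1) q.1),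
    hV.comp_of_eq (analyticAt_shear hφ) (by simp [hφ0, Prod.mk_zero_zero]),
    by simpa [hφ0, Prod.mk_zero_zero] using hV0, ?_⟩
  filter_upwards [(continuous_fst.tendsto (0 : ℂ × ℂ)).eventually hφ.eventually_analyticAt]
    with q hq
  have h2 : H928.jac (T.Th i.1 i.2) q = H928.jac (psi (i.2 :: i.1.1))
      (q.1, q.2 + phi (fun p => p.1 * disc n P p) (i.2 :: i.1.1) q.1) *
      H928.jac (fun q : ℂ × ℂ =>
        ((q.1, q.2 + phi (fun p => p.1 * disc n P p) (i.2 :: i.1.1) q.1) : ℂ × ℂ)) q := by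
    rw [h1]
    refine H928.jac_comp (analyticAt_psi _ _).differentiableAt ?_
    exact (analyticAt_fst.prod (analyticAt_snd.add
      (hq.comp_of_eq analyticAt_fst rfl))).differentiableAt
  have h3 : jacP (ThT T i) q = H928.jac (T.Th i.1 i.2) q := rfl
  rw [h3, h2, hJ, Tree.jac_shear hq, mul_one, pow_zero, pow_zero]

/-- **the canonical equation at the free places.** -/
theorem free_can (J : JungT f n P v T ζ σ ρ) {μ : ℕ} (hμ : Milnor f μ) {i : PlT T}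
    (hi : i.2 :: i.1.1 ∉ T.C) (he : ¬ exc (i.2 :: i.1.1)) {a b : ℕ}
    (hJ : MonU (jacP (ThT T i)) a b) (l : Fin n) {c d : ℕ}
    (hd : MonU (fun q => pd 2 f (J.M.ch i l q)) c d) :
    b = 0 ∧ Function.minimalPeriod (ρ i) l ∣ n.factorial ∧
      0 < Function.minimalPeriod (ρ i) l ∧
      (n.factorial : ℤ) * (b + 1) - d =
        (n.factorial / Function.minimalPeriod (ρ i) l : ℕ) := by
  obtain ⟨a', ha'⟩ := jac_free hi he
  obtain ⟨-, rfl⟩ := MonU_unique hJ ha'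
  have hne : ∀ᶠ s in 𝓝[≠] (0 : ℂ), ThT T i (s, 0) ≠ 0 := by
    have hline : Tendsto (fun a : ℂ => ((a, (0 : ℂ)) : ℂ × ℂ)) (𝓝[≠] 0) (𝓝 0) :=
      ((Continuous.prodMk_left (0 : ℂ)).continuousAt.tendsto).mono_left nhdsWithin_le_nhds
    have h0 : ∀ᶠ b : ℂ in 𝓝[≠] 0, b ≠ 0 := eventually_mem_nhdsWithin
    filter_upwards [hline.eventually (T.Th_snd_ne_zero i.1.2 hi he), h0] with s h1 h2
    exact h1 h2
  obtain ⟨h1, h2, h3⟩ := Model_free J.M hμ i l hne hJ hd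
  refine ⟨rfl, h1, h2, ?_⟩
  have h4 : n.factorial / Function.minimalPeriod (ρ i) l ≤ n.factorial := Nat.div_le_self _ _
  rw [h3]
  push_cast [Nat.cast_sub h4]
  ring

end tree

end Vale.Agent.P298.H400
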