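import Mathlib

/-!
Arithmetic of the annihilator of the stabiliser of a root under two commuting rotations.
-/

namespace Vale.Agent.P298.H400

variable {K : ℕ}

/-- the annihilator modulo `K` of a subgroup of the plane lattice. -/
def ann (K : ℕ) (S : AddSubgroup (ℤ × ℤ)) : AddSubgroup (ℤ × ℤ) where
  carrier := {g | ∀ s ∈ S, (K : ℤ) ∣ s.1 * g.1 + s.2 * g.2}
  zero_mem' := by intro s _; simp
  add_mem' := by
    intro a b ha hb s hs
    have h1 := dvd_add (ha s hs) (hb s hs)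
    have h2 : s.1 * (a + b).1 + s.2 * (a + b).2 =
      s.1 * a.1 + s.2 * a.2 + (s.1 * b.1 + s.2 * b.2) := by
      simp only [Prod.fst_add, Prod.snd_add]; ring
    rw [h2]; exact h1
  neg_mem' := by
    intro a ha s hs
    have h1 := (dvd_neg).2 (ha s hs)
    have h2 : s.1 * (-a).1 + s.2 * (-a).2 = -(s.1 * a.1 + s.2 * a.2) := by
      simp only [Prod.fst_neg, Prod.snd_neg]; ring
    rw [h2]; exact h1

theorem mem_ann {S : AddSubgroup (ℤ × ℤ)} {g : ℤ × ℤ} :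
    g ∈ ann K S ↔ ∀ s ∈ S, (K : ℤ) ∣ s.1 * g.1 + s.2 * g.2 := Iff.rfl

/-- the second projection of the annihilator. -/
theorem exists_fst_mem_ann (hK : K ≠ 0) {S : AddSubgroup (ℤ × ℤ)} (h1 : ((K : ℤ), (0 : ℤ)) ∈ S)
    {per : ℤ} (hper : ∀ j : ℤ, ((0 : ℤ), j) ∈ S ↔ per ∣ j) (b : ℤ) :
    (∃ a : ℤ, (a, b) ∈ ann K S) ↔ (K : ℤ) ∣ per * b := by
  constructor
  · rintro ⟨a, ha⟩
    have := ha (0, per) ((hper per).2 dvd_rfl)
    simpa using this
  · intro hb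
    -- the first projection of `S` is cyclic
    let S1 : AddSubgroup ℤ := S.map (AddMonoidHom.fst ℤ ℤ)
    obtain ⟨m, hm⟩ := (Int.subgroup_cyclic S1)
    have hmS : m ∈ S1 := by rw [hm]; exact AddSubgroup.subset_closure rfl
    have hdiv : ∀ x ∈ S1, m ∣ x := by
      intro x hx
      rw [hm, AddSubgroup.mem_closure_singleton] at hx
      obtain ⟨c, rfl⟩ := hx
      exact ⟨c, by rw [smul_eq_mul, mul_comm]⟩
    obtain ⟨⟨m', j0⟩, hj, hm'⟩ := hmS
    change m' = m at hm'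
    subst hm'
    have hKm : m' ∣ (K : ℤ) := hdiv K ⟨(K, 0), h1, rfl⟩
    obtain ⟨c, hc⟩ := hKm
    have hK0 : (K : ℤ) ≠ 0 := by exact_mod_cast hK
    have hc0 : c ≠ 0 := by rintro rfl; rw [mul_zero] at hc; exact hK0 hc
    -- `(0, c j0)` is in `S`
    have h2 : ((0 : ℤ), c * j0) ∈ S := by
      have h3 := S.sub_mem (S.zsmul_mem hj c) h1
      have h4 : c • (m', j0) - ((K : ℤ), (0 : ℤ)) = (0, c * j0) := by
        ext
        · simp [hc, mul_comm]
        · simp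
      rwa [h4] at h3
    obtain ⟨e, he⟩ := (hper _).1 h2
    obtain ⟨g, hg⟩ := hb
    -- `m' ∣ j0 b`
    have h5 : m' ∣ j0 * b := by
      have h6 : c * (j0 * b) = c * (m' * (g * e)) := by
        calc c * (j0 * b) = (c * j0) * b := by ring
          _ = (per * e) * b := by rw [he]
          _ = (per * b) * e := by ring
          _ = (K * g) * e := by rw [hg]
          _ = (m' * c * g) * e := by rw [hc]
          _ = c * (m' * (g * e)) := by ring
      exact ⟨g * e, mul_left_cancel₀ hc0 h6⟩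
    obtain ⟨a, ha⟩ := h5
    refine ⟨-a, ?_⟩
    rintro ⟨x, y⟩ hxy
    obtain ⟨z, rfl⟩ := hdiv x ⟨(x, y), hxy, rfl⟩
    have h7 : ((0 : ℤ), y - z * j0) ∈ S := by
      have h8 := S.sub_mem hxy (S.zsmul_mem hj z)
      have h9 : (m' * z, y) - z • (m', j0) = (0, y - z * j0) := by
        ext
        · simp [mul_comm]
        · simp
      rwa [h9] at h8
    obtain ⟨t, ht⟩ := (hper _).1 h7
    refine ⟨g * t, ?_⟩
    simp only
    calc m' * z * -a + y * b = (y - z * j0) * b + z * (j0 * b - m' * a) := by ring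
      _ = (per * t) * b + z * (j0 * b - m' * a) := by rw [ht]
      _ = (per * b) * t := by rw [ha]; ring
      _ = K * (g * t) := by rw [hg]; ring

/-- the first projection of the annihilator. -/
theorem exists_snd_mem_ann (hK : K ≠ 0) {S : AddSubgroup (ℤ × ℤ)} (h2 : ((0 : ℤ), (K : ℤ)) ∈ S)
    {per : ℤ} (hper : ∀ j : ℤ, (j, (0 : ℤ)) ∈ S ↔ per ∣ j) (a : ℤ) :
    (∃ b : ℤ, (a, b) ∈ ann K S) ↔ (K : ℤ) ∣ per * a := by
  let e : ℤ × ℤ ≃+ ℤ × ℤ := AddEquiv.prodComm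
  have hmem : ∀ x y : ℤ, (x, y) ∈ S.map (e : ℤ × ℤ →+ ℤ × ℤ) ↔ (y, x) ∈ S := by
    intro x y
    constructor
    · rintro ⟨⟨p, q⟩, h, h'⟩
      have h3 : (q, p) = (x, y) := h'
      rw [Prod.mk.injEq] at h3
      obtain ⟨rfl, rfl⟩ := h3
      exact h
    · intro h
      exact ⟨(y, x), h, rfl⟩
  have h3 := exists_fst_mem_ann (K := K) hK (S := S.map (e : ℤ × ℤ →+ ℤ × ℤ))
    ((hmem _ _).2 h2) (per := per) (fun j => by rw [hmem]; exact hper j) a
  rw [← h3]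
  constructor
  · rintro ⟨b, hb⟩
    refine ⟨b, ?_⟩
    rintro ⟨x, y⟩ hxy
    have := hb (y, x) ((hmem _ _).1 hxy)
    simp only at this ⊢
    rwa [add_comm] at this
  · rintro ⟨b, hb⟩
    refine ⟨b, ?_⟩
    rintro ⟨x, y⟩ hxy
    have := hb (y, x) ((hmem _ _).2 hxy)
    simp only at this ⊢
    rwa [add_comm] at this

/-! ### stabilisers -/

section stab

variable {ι : Type*} {σ ρ : Equiv.Perm ι}

/-- the stabiliser of `l` in the plane lattice. -/
def stab (h : Commute σ ρ) (l : ι) : AddSubgroup (ℤ × ℤ) where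
  carrier := {s | (σ ^ s.1 * ρ ^ s.2) l = l}
  zero_mem' := by simp
  add_mem' := by
    intro a b ha hb
    have ha' : (σ ^ a.1 * ρ ^ a.2) l = l := ha
    have hb' : (σ ^ b.1 * ρ ^ b.2) l = l := hb
    show (σ ^ (a.1 + b.1) * ρ ^ (a.2 + b.2)) l = l
    have h1 : σ ^ (a.1 + b.1) * ρ ^ (a.2 + b.2) = (σ ^ a.1 * ρ ^ a.2) * (σ ^ b.1 * ρ ^ b.2) := by
      rw [zpow_add, zpow_add]
      have h2 : ρ ^ a.2 * σ ^ b.1 = σ ^ b.1 * ρ ^ a.2 := ((h.zpow_zpow b.1 a.2).eq).symm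
      calc σ ^ a.1 * σ ^ b.1 * (ρ ^ a.2 * ρ ^ b.2) = σ ^ a.1 * (σ ^ b.1 * ρ ^ a.2) * ρ ^ b.2 := by
            simp only [mul_assoc]
        _ = σ ^ a.1 * (ρ ^ a.2 * σ ^ b.1) * ρ ^ b.2 := by rw [h2]
        _ = _ := by simp only [mul_assoc]
    rw [h1, Equiv.Perm.mul_apply, hb', ha']
  neg_mem' := by
    intro a ha
    have ha' : (σ ^ a.1 * ρ ^ a.2) l = l := ha
    show (σ ^ (-a.1) * ρ ^ (-a.2)) l = l
    have h1 : σ ^ (-a.1) * ρ ^ (-a.2) = (σ ^ a.1 * ρ ^ a.2)⁻¹ := by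
      rw [mul_inv_rev, zpow_neg, zpow_neg]
      have := (h.zpow_zpow a.1 a.2)
      have h2 : Commute (σ ^ a.1)⁻¹ (ρ ^ a.2)⁻¹ := this.inv_inv
      exact h2.eq
    rw [h1, Equiv.Perm.inv_eq_iff_eq, ha']

theorem mem_stab {h : Commute σ ρ} {l : ι} {s : ℤ × ℤ} :
    s ∈ stab h l ↔ (σ ^ s.1 * ρ ^ s.2) l = l := Iff.rfl

theorem zpow_apply_eq_iff (ρ : Equiv.Perm ι) (l : ι) (j : ℤ) :
    (ρ ^ j) l = l ↔ (Function.minimalPeriod ρ l : ℤ) ∣ j := by
  have hnat : ∀ m : ℕ, (ρ ^ m) l = l ↔ Function.minimalPeriod ρ l ∣ m := by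
    intro m
    rw [← Function.isPeriodicPt_iff_minimalPeriod_dvd, ← Equiv.Perm.iterate_eq_pow]
    rfl
  obtain ⟨m, rfl | rfl⟩ := j.eq_nat_or_neg
  · rw [zpow_natCast, hnat, Int.natCast_dvd_natCast]
  · rw [zpow_neg, zpow_natCast, Equiv.Perm.inv_eq_iff_eq, dvd_neg, Int.natCast_dvd_natCast,
      ← hnat, eq_comm]

theorem stab_snd {h : Commute σ ρ} {l : ι} (j : ℤ) :
    ((0 : ℤ), j) ∈ stab h l ↔ (Function.minimalPeriod ρ l : ℤ) ∣ j := by
  rw [mem_stab, ← zpow_apply_eq_iff]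
  simp

theorem stab_fst {h : Commute σ ρ} {l : ι} (j : ℤ) :
    (j, (0 : ℤ)) ∈ stab h l ↔ (Function.minimalPeriod σ l : ℤ) ∣ j := by
  rw [mem_stab, ← zpow_apply_eq_iff]
  simp

/-- the second projection of the value lattice is generated by `K / (length of the ρ-orbit)`. -/
theorem exists_fst_mem_ann_stab (hK : K ≠ 0) {h : Commute σ ρ} {l : ι} (hσ : σ ^ K = 1)
    (b : ℤ) : (∃ a : ℤ, (a, b) ∈ ann K (stab h l)) ↔
      (K : ℤ) ∣ Function.minimalPeriod ρ l * b :=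
  exists_fst_mem_ann hK (by rw [mem_stab]; simp [hσ]) (fun j => stab_snd j) b

theorem exists_snd_mem_ann_stab (hK : K ≠ 0) {h : Commute σ ρ} {l : ι} (hρ : ρ ^ K = 1)
    (a : ℤ) : (∃ b : ℤ, (a, b) ∈ ann K (stab h l)) ↔
      (K : ℤ) ∣ Function.minimalPeriod σ l * a :=
  exists_snd_mem_ann hK (by rw [mem_stab]; simp [hρ]) (fun j => stab_fst j) a

/-- in terms of the quotient. -/
theorem dvd_per_mul_iff (hK : K ≠ 0) {ρ : Equiv.Perm ι} {l : ι} (hρ : ρ ^ K = 1) (b : ℤ) :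
    (K : ℤ) ∣ Function.minimalPeriod ρ l * b ↔
      ((K / Function.minimalPeriod ρ l : ℕ) : ℤ) ∣ b := by
  have h1 : Function.minimalPeriod ρ l ∣ K := by
    rw [← Function.isPeriodicPt_iff_minimalPeriod_dvd]
    show (ρ^[K]) l = l
    rw [Equiv.Perm.iterate_eq_pow, hρ]; rfl
  obtain ⟨c, hc⟩ := h1
  have h0 : 0 < Function.minimalPeriod ρ l := by
    rcases Nat.eq_zero_or_pos (Function.minimalPeriod ρ l) with h | h
    · rw [h, zero_mul] at hc; exact absurd hc hK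
    · exact h
  have h2 : K / Function.minimalPeriod ρ l = c := by
    conv_lhs => rw [hc]
    exact Nat.mul_div_cancel_left c h0
  rw [h2]
  have h3 : (K : ℤ) = Function.minimalPeriod ρ l * c := by exact_mod_cast hc
  rw [h3]
  exact mul_dvd_mul_iff_left (by exact_mod_cast h0.ne')

end stab

end Vale.Agent.P298.H400
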