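import Vale.Agent.P298.H400.Orb
import Vale.Agent.P298.H471.Path3

/-!
Node lattices of a Jung model (surface with cyclic quotient points along the exceptional curves):
from the local data at the nodes and at the frozen points to helper471's `OModel`, to the
formula for `X (G + A) - X G`, and to the Cartier clause.
-/

set_option linter.unusedSectionVars false

noncomputable section

namespace Vale.Agent.P298.H400

open Finset

/-- A node lattice: the pairs (order along the first curve, order along the second curve) of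
the monomials; `r` is the index. -/
structure NL where
  L : AddSubgroup (ℤ × ℤ)
  r : ℕ
  rpos : 0 < r
  zero : ∀ v : ℤ, ((0 : ℤ), v) ∈ L ↔ (r : ℤ) ∣ v
  surj : ∀ x : ℤ, ∃ y : ℤ, (x, y) ∈ L

namespace NL

variable (N : NL)

/-- least `ρ ≥ 0` with `(x, y + ρ) ∈ L` -/
def rho (x y : ℤ) : ℤ := ((N.surj x).choose - y) % N.r

theorem rpos' : (0 : ℤ) < N.r := by exact_mod_cast N.rpos

theorem rho_nonneg (x y : ℤ) : 0 ≤ N.rho x y := Int.emod_nonneg _ N.rpos'.ne'

theorem rho_lt (x y : ℤ) : N.rho x y < N.r := Int.emod_lt_of_pos _ N.rpos'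

theorem rho_mem (x y : ℤ) : (x, y + N.rho x y) ∈ N.L := by
  have h1 := (N.surj x).choose_spec
  set v := (N.surj x).choose with hv
  have h2 : ((0 : ℤ), (N.r : ℤ) * ((v - y) / N.r)) ∈ N.L := (N.zero _).2 (dvd_mul_right _ _)
  have h3 := N.L.sub_mem h1 h2
  have h4 : (x, v) - ((0 : ℤ), (N.r : ℤ) * ((v - y) / N.r)) = (x, y + N.rho x y) := by
    have := Int.emod_add_mul_ediv (v - y) N.r
    simp only [rho, ← hv, Prod.mk_sub_mk, sub_zero]
    congr 1
    linarith
  rwa [h4] at h3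

theorem dvd_of_mem {x v w : ℤ} (h1 : (x, v) ∈ N.L) (h2 : (x, w) ∈ N.L) :
    (N.r : ℤ) ∣ v - w := by
  have := N.L.sub_mem h1 h2
  rw [Prod.mk_sub_mk, sub_self] at this
  exact (N.zero _).1 this

theorem rho_unique {x y ρ : ℤ} (h0 : 0 ≤ ρ) (h1 : ρ < N.r) (h : (x, y + ρ) ∈ N.L) :
    N.rho x y = ρ := by
  obtain ⟨k, hk⟩ := N.dvd_of_mem (N.rho_mem x y) h
  have h2 := N.rho_nonneg x y
  have h3 := N.rho_lt x y
  have h4 := N.rpos'
  have h5 : N.rho x y - ρ = N.r * k := by linarith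
  rcases lt_trichotomy k 0 with hk0 | hk0 | hk0
  · nlinarith
  · rw [hk0] at h5; linarith
  · nlinarith

/-- `y + ρ` is the least admissible order `≥ y`. -/
theorem le_of_mem {x y v : ℤ} (h : (x, v) ∈ N.L) (hv : y ≤ v) : y + N.rho x y ≤ v := by
  obtain ⟨k, hk⟩ := N.dvd_of_mem (N.rho_mem x y) h
  have h2 := N.rho_nonneg x y
  have h3 := N.rho_lt x y
  have h4 := N.rpos'
  by_contra hcon
  push Not at hcon
  have hk0 : 0 < k := by
    by_contra hk0
    push Not at hk0
    have : (N.r : ℤ) * k ≤ 0 := mul_nonpos_of_nonneg_of_nonpos h4.le hk0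
    linarith
  nlinarith

theorem rho_eq_zero {x y : ℤ} : N.rho x y = 0 ↔ (x, y) ∈ N.L := by
  constructor
  · intro h
    have := N.rho_mem x y
    rwa [h, add_zero] at this
  · intro h
    exact N.rho_unique le_rfl N.rpos' (by rwa [add_zero])

theorem rho_add {x y a b : ℤ} (h : (a, b) ∈ N.L) : N.rho (x + a) (y + b) = N.rho x y := by
  apply N.rho_unique (N.rho_nonneg _ _) (N.rho_lt _ _)
  have := N.L.add_mem (N.rho_mem x y) h
  rw [Prod.mk_add_mk] at this
  have e : y + N.rho x y + b = y + b + N.rho x y := by ring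
  rwa [e] at this

theorem rho_succ_mem {x y : ℤ} (h : (x, y) ∈ N.L) : N.rho x (y + 1) = (N.r : ℤ) - 1 := by
  have h4 := N.rpos'
  apply N.rho_unique (by omega) (by omega)
  have h2 : ((0 : ℤ), (N.r : ℤ)) ∈ N.L := (N.zero _).2 dvd_rfl
  have := N.L.add_mem h h2
  rw [Prod.mk_add_mk, add_zero] at this
  have e : y + 1 + ((N.r : ℤ) - 1) = y + N.r := by ring
  rwa [e]

theorem rho_succ_not_mem {x y : ℤ} (h : (x, y) ∉ N.L) :
    N.rho x (y + 1) = N.rho x y - 1 := by
  have h4 := N.rpos'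
  have h1 : N.rho x y ≠ 0 := fun h0 => h (N.rho_eq_zero.1 h0)
  have h2 := N.rho_nonneg x y
  have h3 := N.rho_lt x y
  apply N.rho_unique (by omega) (by omega)
  have e : y + 1 + (N.rho x y - 1) = y + N.rho x y := by ring
  rw [e]
  exact N.rho_mem x y

/-- Serre duality at a node. -/
theorem rho_serre {x y a b : ℤ} (h : (a + 1, b + 1) ∈ N.L) :
    N.rho x y + N.rho (-a - 1 - x) (-b - y) = N.r - 1 := by
  have h1 := N.rho_nonneg x y
  have h2 := N.rho_lt x y
  have : N.rho (-a - 1 - x) (-b - y) = N.r - 1 - N.rho x y := by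
    apply N.rho_unique (by omega) (by omega)
    have h3 := N.rho_mem x y
    have h4 := N.L.neg_mem (N.L.add_mem h3 h)
    have h5 : ((0 : ℤ), (N.r : ℤ)) ∈ N.L := (N.zero _).2 dvd_rfl
    have h6 := N.L.add_mem h4 h5
    rw [Prod.mk_add_mk, Prod.neg_mk, Prod.mk_add_mk] at h6
    have e1 : -(x + (a + 1)) + 0 = -a - 1 - x := by ring
    have e2 : -(y + N.rho x y + (b + 1)) + (N.r : ℤ) = -b - y + (N.r - 1 - N.rho x y) := by
      ring
    rwa [e1, e2] at h6
  rw [this]; ring

end NL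

/-- Data of a Jung model. `H` = half-edges (places of the residue fields at the nodes), `F` =
frozen points (meeting points with non compact branch curves), `nl`, `fnl` their lattices, `s`
self-intersections, `K` orders of the canonical form, `A` orders of `x`, `rC` the number of
branches of `x = 0` at `E_j`. -/
structure NodeData (I H F : Type*) [Fintype I] [DecidableEq I] [Fintype H] [Fintype F] where
  org : H → I
  opp : H → H
  opp_opp : ∀ h, opp (opp h) = h
  org_ne : ∀ h, org (opp h) ≠ org h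
  nl : H → NL
  r_opp : ∀ h, (nl (opp h)).r = (nl h).r
  L_opp : ∀ h (x y : ℤ), (x, y) ∈ (nl (opp h)).L ↔ (y, x) ∈ (nl h).L
  forg : F → I
  fnl : F → NL
  s : I → ℝ
  g : I → ℤ
  K : I → ℤ
  A : I → ℤ
  rC : I → ℤ
  LA : ∀ h, (A (org h), A (org (opp h))) ∈ (nl h).L
  LK : ∀ h, (K (org h) + 1, K (org (opp h)) + 1) ∈ (nl h).L
  fLA : ∀ f, (A (forg f), (0 : ℤ)) ∈ (fnl f).L
  fLK : ∀ f, (K (forg f) + 1, (1 : ℤ)) ∈ (fnl f).L
  Apos : ∀ j, 0 < A j
  rC_nonneg : ∀ j, 0 ≤ rC j
  rC_pos : ∃ j, 0 < rC j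
  intA : ∀ j, A j * s j +
    ∑ h ∈ univ.filter (fun h => org h = j), (A (org (opp h)) : ℝ) / (nl h).r = -rC j
  adj : ∀ j, (K j + 1) * s j +
    ∑ h ∈ univ.filter (fun h => org h = j), (K (org (opp h)) : ℝ) / (nl h).r =
      2 * g j - 2 + ∑ h ∈ univ.filter (fun h => org h = j), (1 - 1 / ((nl h).r : ℝ)) +
        ∑ f ∈ univ.filter (fun f => forg f = j), (1 - 1 / ((fnl f).r : ℝ))
  deg : (I → ℤ) → I → ℤ
  deg_eq : ∀ (D : I → ℤ) j, (deg D j : ℝ) = -(D j * s j) -
    ∑ h ∈ univ.filter (fun h => org h = j),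
      ((D (org (opp h)) : ℝ) + (nl h).rho (D j) (D (org (opp h)))) / (nl h).r -
    ∑ f ∈ univ.filter (fun f => forg f = j), ((fnl f).rho (D j) 0 : ℝ) / (fnl f).r

/-- connectedness of the graph of a model -/
def NodeData.Conn {I H F : Type*} [Fintype I] [DecidableEq I] [Fintype H] [Fintype F]
    (N : NodeData I H F) : Prop :=
  ∀ S : Finset I, S.Nonempty → S ≠ univ → ∃ h, N.org h ∈ S ∧ N.org (N.opp h) ∉ S

namespace NodeData

variable {I H F : Type*} [Fintype I] [DecidableEq I] [Fintype H] [Fintype F]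
variable (N : NodeData I H F)

/-- half-edges at `j` -/
def at' (j : I) : Finset H := univ.filter (fun h => N.org h = j)

/-- frozen points at `j` -/
def fat (j : I) : Finset F := univ.filter (fun f => N.forg f = j)

theorem mem_at {j : I} {h : H} : h ∈ N.at' j ↔ N.org h = j := by simp [at']

theorem mem_fat {j : I} {f : F} : f ∈ N.fat j ↔ N.forg f = j := by simp [fat]

/-- intersection matrix -/
def M (i j : I) : ℝ :=
  if i = j then N.s i else
    ∑ h ∈ (N.at' i).filter (fun h => N.org (N.opp h) = j), 1 / ((N.nl h).r : ℝ)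

/-- different -/
def δ (j : I) : ℝ :=
  ∑ h ∈ N.at' j, (1 - 1 / ((N.nl h).r : ℝ)) + ∑ f ∈ N.fat j, (1 - 1 / ((N.fnl f).r : ℝ))

theorem M_self (j : I) : N.M j j = N.s j := by simp [M]

theorem M_ne {i j : I} (h : i ≠ j) : N.M i j =
    ∑ h ∈ (N.at' i).filter (fun h => N.org (N.opp h) = j), 1 / ((N.nl h).r : ℝ) := by
  simp [M, h]

theorem M_symm (i j : I) : N.M i j = N.M j i := by
  by_cases hij : i = j
  · subst hij; rfl
  · rw [N.M_ne hij, N.M_ne (Ne.symm hij)]
    apply Finset.sum_bij' (fun h _ => N.opp h) (fun h _ => N.opp h)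
    · intro h hh
      simp only [Finset.mem_filter, mem_at] at hh ⊢
      exact ⟨hh.2, by rw [N.opp_opp]; exact hh.1⟩
    · intro h hh
      simp only [Finset.mem_filter, mem_at] at hh ⊢
      exact ⟨hh.2, by rw [N.opp_opp]; exact hh.1⟩
    · intro h _; exact N.opp_opp h
    · intro h _; exact N.opp_opp h
    · intro h _; rw [N.r_opp]

theorem M_off {i j : I} (h : i ≠ j) : 0 ≤ N.M i j := by
  rw [N.M_ne h]
  apply Finset.sum_nonneg
  intro h _
  positivity

/-- intersection numbers as sums over the half-edges -/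
theorem ipR_eq (W : I → ℝ) (j : I) : H471.ipR N.M W j =
    W j * N.s j + ∑ h ∈ N.at' j, W (N.org (N.opp h)) / (N.nl h).r := by
  simp only [H471.ipR]
  rw [← Finset.add_sum_erase _ _ (mem_univ j), N.M_self]
  have h1 : ∑ h ∈ N.at' j, W (N.org (N.opp h)) / (N.nl h).r =
      ∑ l ∈ univ.erase j, ∑ h ∈ (N.at' j).filter (fun h => N.org (N.opp h) = l),
        W (N.org (N.opp h)) / (N.nl h).r := by
    rw [Finset.sum_fiberwise_of_maps_to (s := N.at' j) (t := univ.erase j)
      (g := fun h => N.org (N.opp h))]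
    intro h hh
    rw [Finset.mem_erase]
    refine ⟨?_, mem_univ _⟩
    rw [mem_at] at hh
    rw [← hh]; exact N.org_ne h
  rw [h1]
  congr 1
  · ring
  · apply Finset.sum_congr rfl
    intro l hl
    have hlj : j ≠ l := (Finset.mem_erase.1 hl).1.symm
    rw [N.M_ne hlj, Finset.sum_mul]
    apply Finset.sum_congr rfl
    intro h hh
    rw [(Finset.mem_filter.1 hh).2]
    ring

theorem r_pos (h : H) : (0 : ℝ) < (N.nl h).r := by exact_mod_cast (N.nl h).rpos

theorem fr_pos (f : F) : (0 : ℝ) < (N.fnl f).r := by exact_mod_cast (N.fnl f).rpos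

theorem pos (D : I → ℤ) (j : I) : -H471.ipR N.M (H471.toR D) j - N.δ j ≤ N.deg D j := by
  rw [N.deg_eq, N.ipR_eq]
  simp only [H471.toR, δ]
  have h1 : ∑ h ∈ N.at' j, ((D (N.org (N.opp h)) : ℝ) +
      (N.nl h).rho (D j) (D (N.org (N.opp h)))) / (N.nl h).r ≤
      ∑ h ∈ N.at' j, (D (N.org (N.opp h)) : ℝ) / (N.nl h).r +
      ∑ h ∈ N.at' j, (1 - 1 / ((N.nl h).r : ℝ)) := by
    rw [← Finset.sum_add_distrib]
    apply Finset.sum_le_sum
    intro h _
    have h2 : ((N.nl h).rho (D j) (D (N.org (N.opp h))) : ℝ) ≤ (N.nl h).r - 1 := by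
      have := (N.nl h).rho_lt (D j) (D (N.org (N.opp h)))
      have h3 : (N.nl h).rho (D j) (D (N.org (N.opp h))) ≤ (N.nl h).r - 1 := by omega
      exact_mod_cast h3
    have h4 := N.r_pos h
    rw [add_div]
    have h5 : ((N.nl h).rho (D j) (D (N.org (N.opp h))) : ℝ) / (N.nl h).r ≤
        1 - 1 / ((N.nl h).r : ℝ) := by
      rw [div_le_iff₀ h4, sub_mul, one_mul, one_div, inv_mul_cancel₀ h4.ne']
      exact h2
    linarith
  have h2 : ∑ f ∈ N.fat j, ((N.fnl f).rho (D j) 0 : ℝ) / (N.fnl f).r ≤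
      ∑ f ∈ N.fat j, (1 - 1 / ((N.fnl f).r : ℝ)) := by
    apply Finset.sum_le_sum
    intro f _
    have h2 : ((N.fnl f).rho (D j) 0 : ℝ) ≤ (N.fnl f).r - 1 := by
      have := (N.fnl f).rho_lt (D j) 0
      have h3 : (N.fnl f).rho (D j) 0 ≤ (N.fnl f).r - 1 := by omega
      exact_mod_cast h3
    have h4 := N.fr_pos f
    rw [div_le_iff₀ h4, sub_mul, one_mul, one_div, inv_mul_cancel₀ h4.ne']
    exact h2
  have e1 : N.at' j = univ.filter (fun h => N.org h = j) := rfl
  have e2 : N.fat j = univ.filter (fun f => N.forg f = j) := rfl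
  rw [e1] at h1 ⊢
  rw [e2] at h2 ⊢
  linarith

theorem adj' (j : I) : H471.ipR N.M (H471.toR N.K) j + N.M j j = 2 * N.g j - 2 + N.δ j := by
  rw [N.ipR_eq, N.M_self]
  have := N.adj j
  simp only [H471.toR, δ]
  have e1 : N.at' j = univ.filter (fun h => N.org h = j) := rfl
  have e2 : N.fat j = univ.filter (fun f => N.forg f = j) := rfl
  rw [e1, e2]
  linarith

theorem ipA (j : I) : H471.ipR N.M (H471.toR N.A) j = -N.rC j := by
  rw [N.ipR_eq]
  have := N.intA j
  simp only [H471.toR]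
  have e1 : N.at' j = univ.filter (fun h => N.org h = j) := rfl
  rw [e1]
  linarith

theorem conn' (hN : N.Conn) (S : Finset I) (h1 : S.Nonempty) (h2 : S ≠ univ) :
    ∃ i ∈ S, ∃ j, j ∉ S ∧ 0 < N.M i j := by
  obtain ⟨h, ha, hb⟩ := hN S h1 h2
  refine ⟨N.org h, ha, N.org (N.opp h), hb, ?_⟩
  rw [N.M_ne (N.org_ne h).symm]
  apply Finset.sum_pos
  · intro k _
    have := N.r_pos k
    positivity
  · exact ⟨h, by simp [mem_at]⟩

/-- Negative definiteness from the function `x`. -/
theorem negdef (hN : ∀ S : Finset I, S.Nonempty → S ≠ univ → ∃ i ∈ S, ∃ j, j ∉ S ∧ 0 < N.M i j)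
    (x : I → ℝ) (hx : x ≠ 0) : ∑ i, ∑ j, N.M i j * x i * x j < 0 := by
  classical
  set a : I → ℝ := fun i => (N.A i : ℝ) with ha
  have hap : ∀ i, 0 < a i := fun i => by simp only [ha]; exact_mod_cast N.Apos i
  have hip : ∀ i, ∑ j, N.M i j * a j = -N.rC i := fun i => N.ipA i
  -- identity
  set y : I → ℝ := fun i => x i / a i with hy
  have hxy : ∀ i, x i = a i * y i := fun i => by
    simp only [hy]; field_simp [(hap i).ne']
  have key : ∑ i, ∑ j, N.M i j * x i * x j =
      ∑ i, (-N.rC i : ℝ) * a i * y i ^ 2 -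
        (1 / 2) * ∑ i, ∑ j, N.M i j * a i * a j * (y i - y j) ^ 2 := by
    have e1 : ∑ i, ∑ j, N.M i j * a i * a j * (y i - y j) ^ 2 =
        ∑ i, ∑ j, N.M i j * a i * a j * y i ^ 2 + ∑ i, ∑ j, N.M i j * a i * a j * y j ^ 2 -
          2 * ∑ i, ∑ j, N.M i j * x i * x j := by
      rw [Finset.mul_sum, ← Finset.sum_add_distrib, ← Finset.sum_sub_distrib]
      apply Finset.sum_congr rfl
      intro i _
      rw [Finset.mul_sum, ← Finset.sum_add_distrib, ← Finset.sum_sub_distrib]
      apply Finset.sum_congr rfl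
      intro j _
      rw [hxy i, hxy j]; ring
    have e2 : ∑ i, ∑ j, N.M i j * a i * a j * y i ^ 2 = ∑ i, (-N.rC i : ℝ) * a i * y i ^ 2 := by
      apply Finset.sum_congr rfl
      intro i _
      have : ∑ j, N.M i j * a i * a j * y i ^ 2 = (∑ j, N.M i j * a j) * a i * y i ^ 2 := by
        rw [Finset.sum_mul, Finset.sum_mul]
        apply Finset.sum_congr rfl
        intro j _; ring
      rw [this, hip]
    have e3 : ∑ i, ∑ j, N.M i j * a i * a j * y j ^ 2 = ∑ i, (-N.rC i : ℝ) * a i * y i ^ 2 := by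
      rw [Finset.sum_comm, ← e2]
      apply Finset.sum_congr rfl
      intro i _
      apply Finset.sum_congr rfl
      intro j _
      rw [N.M_symm]; ring
    rw [e1, e2, e3]; ring
  have hA : ∑ i, (-N.rC i : ℝ) * a i * y i ^ 2 ≤ 0 := by
    apply Finset.sum_nonpos
    intro i _
    have h1 : (0 : ℝ) ≤ N.rC i := by exact_mod_cast N.rC_nonneg i
    have h2 := (hap i).le
    have : 0 ≤ (N.rC i : ℝ) * a i * y i ^ 2 := by positivity
    linarith
  have hB0 : ∀ i, ∀ j, 0 ≤ N.M i j * a i * a j * (y i - y j) ^ 2 := by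
    intro i j
    by_cases hij : i = j
    · subst hij; simp
    · have h1 := N.M_off hij
      have h2 := (hap i).le
      have h3 := (hap j).le
      positivity
  have hB : 0 ≤ ∑ i, ∑ j, N.M i j * a i * a j * (y i - y j) ^ 2 :=
    Finset.sum_nonneg fun i _ => Finset.sum_nonneg fun j _ => hB0 i j
  rw [key]
  by_contra hcon
  push Not at hcon
  have hA0 : ∑ i, (-N.rC i : ℝ) * a i * y i ^ 2 = 0 := by linarith
  have hB1 : ∑ i, ∑ j, N.M i j * a i * a j * (y i - y j) ^ 2 = 0 := by linarith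
  -- all y equal
  obtain ⟨j0, hj0⟩ := N.rC_pos
  have hyj0 : y j0 = 0 := by
    have h1 := (Finset.sum_eq_zero_iff_of_nonpos (fun i _ => by
      have h1 : (0 : ℝ) ≤ N.rC i := by exact_mod_cast N.rC_nonneg i
      have h2 := (hap i).le
      have : 0 ≤ (N.rC i : ℝ) * a i * y i ^ 2 := by positivity
      linarith)).1 hA0 j0 (mem_univ j0)
    have h2 : (0 : ℝ) < N.rC j0 := by exact_mod_cast hj0
    have h3 := hap j0
    by_contra hne
    have : 0 < (N.rC j0 : ℝ) * a j0 * y j0 ^ 2 := by positivity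
    linarith
  set S : Finset I := univ.filter (fun i => y i = 0) with hS
  have hSn : S.Nonempty := ⟨j0, by simp [hS, hyj0]⟩
  have hSu : S = univ := by
    by_contra hne
    obtain ⟨i, hi, l, hl, hM⟩ := hN S hSn hne
    have h1 := (Finset.sum_eq_zero_iff_of_nonneg (fun i _ =>
      Finset.sum_nonneg fun j _ => hB0 i j)).1 hB1 i (mem_univ i)
    have h2 := (Finset.sum_eq_zero_iff_of_nonneg (fun j _ => hB0 i j)).1 h1 l (mem_univ l)
    have hyi : y i = 0 := by simpa [hS] using hi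
    have hyl : y l ≠ 0 := by simpa [hS] using hl
    have h3 := hap i
    have h4 := hap l
    have : 0 < N.M i l * a i * a l * (y i - y l) ^ 2 := by
      rw [hyi]
      have : 0 < (0 - y l) ^ 2 := by
        rw [zero_sub, neg_sq]; positivity
      positivity
    linarith
  apply hx
  funext i
  have : i ∈ S := by rw [hSu]; exact mem_univ i
  have hyi : y i = 0 := by simpa [hS] using this
  rw [hxy i, hyi]; simp

end NodeData

end Vale.Agent.P298.H400
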