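import Vale.Agent.P298.H400.Node

/-!
From node data to helper471's `OModel`, `Anchor` and the Cartier clause of `ZData`.
-/

set_option linter.unusedSectionVars false

noncomputable section

namespace Vale.Agent.P298.H400

open Finset

theorem ee_eq {I : Type*} [DecidableEq I] (j : I) : H471.ee j = ee j := by
  funext l
  by_cases h : l = j
  · subst h; simp [H471.ee, ee]
  · simp [H471.ee, ee, h]

namespace NodeData

variable {I H F : Type*} [Fintype I] [DecidableEq I] [Fintype H] [Fintype F]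
variable (N : NodeData I H F)

theorem deg_eq' (D : I → ℤ) (j : I) : (N.deg D j : ℝ) = -(D j * N.s j) -
    ∑ h ∈ N.at' j,
      ((D (N.org (N.opp h)) : ℝ) + (N.nl h).rho (D j) (D (N.org (N.opp h)))) / (N.nl h).r -
    ∑ f ∈ N.fat j, ((N.fnl f).rho (D j) 0 : ℝ) / (N.fnl f).r := N.deg_eq D j

open Classical in
/-- nodes between `j` and `l` where `D` is Cartier -/
def cnt (j l : I) (D : I → ℤ) : ℕ :=
  ((N.at' j).filter (fun h => N.org (N.opp h) = l ∧ (D j, D l) ∈ (N.nl h).L)).card

theorem cnt_symm (j l : I) (D : I → ℤ) : N.cnt j l D = N.cnt l j D := by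
  classical
  unfold cnt
  apply Finset.card_bij' (fun h _ => N.opp h) (fun h _ => N.opp h)
  · intro h hh
    simp only [Finset.mem_filter, mem_at] at hh ⊢
    refine ⟨hh.2.1, ?_, ?_⟩
    · rw [N.opp_opp]; exact hh.1
    · rw [N.L_opp]; exact hh.2.2
  · intro h hh
    simp only [Finset.mem_filter, mem_at] at hh ⊢
    refine ⟨hh.2.1, ?_, ?_⟩
    · rw [N.opp_opp]; exact hh.1
    · rw [N.L_opp]; exact hh.2.2
  · intro h _; exact N.opp_opp h
  · intro h _; exact N.opp_opp h

theorem deg_add_ne {j l : I} (hjl : j ≠ l) (D : I → ℤ) :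
    N.deg (D + ee l) j = N.deg D j - N.cnt j l D := by
  classical
  have h1 : (N.deg (D + ee l) j : ℝ) = N.deg D j - N.cnt j l D := by
    rw [N.deg_eq', N.deg_eq']
    have hj : (D + ee l) j = D j := by simp [ee, hjl]
    rw [hj]
    have h2 : ∑ h ∈ N.at' j, (((D + ee l) (N.org (N.opp h)) : ℝ) +
        (N.nl h).rho (D j) ((D + ee l) (N.org (N.opp h)))) / (N.nl h).r =
        ∑ h ∈ N.at' j, (((D (N.org (N.opp h)) : ℝ) +
        (N.nl h).rho (D j) (D (N.org (N.opp h)))) / (N.nl h).r +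
          if (N.org (N.opp h) = l ∧ (D j, D l) ∈ (N.nl h).L) then (1 : ℝ) else 0) := by
      apply Finset.sum_congr rfl
      intro h _
      have h4 := N.r_pos h
      by_cases hl : N.org (N.opp h) = l
      · have e1 : (D + ee l) (N.org (N.opp h)) = D l + 1 := by rw [hl]; simp [ee]
        rw [e1, hl]
        by_cases hm : (D j, D l) ∈ (N.nl h).L
        · rw [(N.nl h).rho_succ_mem hm, (N.nl h).rho_eq_zero.2 hm]
          simp only [hm, and_self, if_true]
          push_cast
          field_simp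
          ring
        · rw [(N.nl h).rho_succ_not_mem hm]
          simp only [hm, and_false, if_false]
          push_cast
          ring
      · have e1 : (D + ee l) (N.org (N.opp h)) = D (N.org (N.opp h)) := by
          simp [ee, hl]
        rw [e1]
        simp [hl]
    rw [h2, Finset.sum_add_distrib]
    have h3 : ∑ h ∈ N.at' j, (if (N.org (N.opp h) = l ∧ (D j, D l) ∈ (N.nl h).L) then (1 : ℝ)
        else 0) = N.cnt j l D := by
      rw [← Finset.sum_filter]
      simp [cnt]
    rw [h3]; ring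
  exact_mod_cast h1

theorem sq (j l : I) (D : I → ℤ) (hjl : j ≠ l) :
    N.deg D j + N.deg (D + ee j) l = N.deg D l + N.deg (D + ee l) j := by
  rw [N.deg_add_ne hjl, N.deg_add_ne (Ne.symm hjl), N.cnt_symm l j]
  ring

theorem serre (j : I) (D : I → ℤ) :
    N.deg D j + N.deg (-N.K - ee j - D) j = 2 * N.g j - 2 := by
  have h1 : (N.deg D j : ℝ) + N.deg (-N.K - ee j - D) j = 2 * N.g j - 2 := by
    rw [N.deg_eq', N.deg_eq']
    have hj : (-N.K - ee j - D) j = -N.K j - 1 - D j := by simp [ee]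
    rw [hj]
    have hadj := N.adj' j
    rw [N.ipR_eq, N.M_self] at hadj
    simp only [H471.toR, δ] at hadj
    have h2 : ∑ h ∈ N.at' j, (((-N.K - ee j - D) (N.org (N.opp h)) : ℝ) +
        (N.nl h).rho (-N.K j - 1 - D j) ((-N.K - ee j - D) (N.org (N.opp h)))) / (N.nl h).r =
        ∑ h ∈ N.at' j, (1 - 1 / ((N.nl h).r : ℝ)) -
          ∑ h ∈ N.at' j, (N.K (N.org (N.opp h)) : ℝ) / (N.nl h).r -
        ∑ h ∈ N.at' j, ((D (N.org (N.opp h)) : ℝ) +
        (N.nl h).rho (D j) (D (N.org (N.opp h)))) / (N.nl h).r := by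
      rw [← Finset.sum_sub_distrib, ← Finset.sum_sub_distrib]
      apply Finset.sum_congr rfl
      intro h hh
      have h4 := N.r_pos h
      rw [mem_at] at hh
      have hne : N.org (N.opp h) ≠ j := by rw [← hh]; exact N.org_ne h
      have e1 : (-N.K - ee j - D) (N.org (N.opp h)) =
          -N.K (N.org (N.opp h)) - D (N.org (N.opp h)) := by
        simp [ee, hne]
      rw [e1]
      have hK := N.LK h
      rw [hh] at hK
      have h5 := (N.nl h).rho_serre (x := D j) (y := D (N.org (N.opp h))) hK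
      have h6 : ((N.nl h).rho (-N.K j - 1 - D j) (-N.K (N.org (N.opp h)) -
          D (N.org (N.opp h))) : ℝ) = (N.nl h).r - 1 -
          (N.nl h).rho (D j) (D (N.org (N.opp h))) := by
        have : (N.nl h).rho (-N.K j - 1 - D j) (-N.K (N.org (N.opp h)) -
          D (N.org (N.opp h))) = (N.nl h).r - 1 -
          (N.nl h).rho (D j) (D (N.org (N.opp h))) := by linarith
        rw [this]; push_cast; ring
      rw [h6]
      push_cast
      field_simp
      ring
    have h3 : ∑ f ∈ N.fat j, ((N.fnl f).rho (-N.K j - 1 - D j) 0 : ℝ) / (N.fnl f).r =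
        ∑ f ∈ N.fat j, (1 - 1 / ((N.fnl f).r : ℝ)) -
        ∑ f ∈ N.fat j, ((N.fnl f).rho (D j) 0 : ℝ) / (N.fnl f).r := by
      rw [← Finset.sum_sub_distrib]
      apply Finset.sum_congr rfl
      intro f hf
      have h4 := N.fr_pos f
      rw [mem_fat] at hf
      have hK := N.fLK f
      rw [hf] at hK
      have hK' : (N.K j + 1, (0 : ℤ) + 1) ∈ (N.fnl f).L := by simpa using hK
      have h5 := (N.fnl f).rho_serre (x := D j) (y := 0) hK'
      rw [neg_zero, sub_zero] at h5
      have h6 : ((N.fnl f).rho (-N.K j - 1 - D j) 0 : ℝ) = (N.fnl f).r - 1 -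
          (N.fnl f).rho (D j) 0 := by
        have : (N.fnl f).rho (-N.K j - 1 - D j) 0 = (N.fnl f).r - 1 -
          (N.fnl f).rho (D j) 0 := by linarith
        rw [this]; push_cast; ring
      rw [h6]
      field_simp
    rw [h2, h3]
    push_cast
    linarith
  exact_mod_cast h1

theorem trans (j : I) (D : I → ℤ) : N.deg (D + N.A) j = N.deg D j + N.rC j := by
  have h1 : (N.deg (D + N.A) j : ℝ) = N.deg D j + N.rC j := by
    rw [N.deg_eq', N.deg_eq']
    simp only [Pi.add_apply]
    have hA := N.ipA j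
    rw [N.ipR_eq] at hA
    simp only [H471.toR] at hA
    have h2 : ∑ h ∈ N.at' j, (((D (N.org (N.opp h)) + N.A (N.org (N.opp h)) : ℤ) : ℝ) +
        (N.nl h).rho (D j + N.A j) (D (N.org (N.opp h)) + N.A (N.org (N.opp h)))) /
          (N.nl h).r =
        ∑ h ∈ N.at' j, ((D (N.org (N.opp h)) : ℝ) +
        (N.nl h).rho (D j) (D (N.org (N.opp h)))) / (N.nl h).r +
        ∑ h ∈ N.at' j, (N.A (N.org (N.opp h)) : ℝ) / (N.nl h).r := by
      rw [← Finset.sum_add_distrib]
      apply Finset.sum_congr rfl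
      intro h hh
      rw [mem_at] at hh
      have hL := N.LA h
      rw [hh] at hL
      rw [(N.nl h).rho_add hL]
      push_cast
      ring
    have h3 : ∑ f ∈ N.fat j, ((N.fnl f).rho (D j + N.A j) 0 : ℝ) / (N.fnl f).r =
        ∑ f ∈ N.fat j, ((N.fnl f).rho (D j) 0 : ℝ) / (N.fnl f).r := by
      apply Finset.sum_congr rfl
      intro f hf
      rw [mem_fat] at hf
      have hL := N.fLA f
      rw [hf] at hL
      have := (N.fnl f).rho_add (x := D j) (y := 0) hL
      rw [add_zero] at this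
      rw [this]
    rw [h2, h3]
    push_cast
    linarith
  exact_mod_cast h1

/-- **Output of the local half**: a potential `X` of the Riemann-Roch numbers satisfying the
translation formula. -/
theorem exists_pot : ∃ X : (I → ℤ) → ℝ,
    (∀ D j, X (D + H471.ee j) - X D = N.deg D j + 1 - N.g j) ∧
    ∀ G : I → ℤ, 2 * (X (G + N.A) - X G) =
      ((∑ j, N.rC j * (2 * G j + N.A j + N.K j) : ℤ) : ℝ) := by
  obtain ⟨χ, hχ⟩ := exists_potential (fun j D => N.deg D j + 1 - N.g j) (by
    intro j l D hjl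
    have := N.sq j l D hjl
    linarith)
  have hser : ∀ D, χ (-N.K - D) = χ D := by
    have hinv : ∀ j D, (χ (-N.K - (D + ee j)) - χ (D + ee j)) = χ (-N.K - D) - χ D := by
      intro j D
      have e1 : -N.K - D = (-N.K - (D + ee j)) + ee j := by abel
      have e2 : χ (-N.K - D) = χ (-N.K - (D + ee j)) +
          (N.deg (-N.K - (D + ee j)) j + 1 - N.g j) := by
        conv_lhs => rw [e1]
        exact hχ j _
      have e3 := hχ j D
      have e4 := N.serre j D
      have e5 : -N.K - ee j - D = -N.K - (D + ee j) := by abel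
      rw [e5] at e4
      rw [e2, e3]
      linarith
    intro D
    have hc : χ (-N.K - D) - χ D = χ (-N.K - (-N.K - D)) - χ (-N.K - D) :=
      const_of_inv (fun D => χ (-N.K - D) - χ D) hinv D (-N.K - D)
    have e6 : -N.K - (-N.K - D) = D := by abel
    rw [e6] at hc
    linarith
  have h2 : ∀ j G, (χ (G + ee j + N.A) - χ (G + ee j)) = (χ (G + N.A) - χ G) + N.rC j := by
    intro j G
    have e1 : G + ee j + N.A = G + N.A + ee j := by abel
    rw [e1, hχ, hχ, N.trans]
    ring
  have h3 : ∀ G G', (χ (G + N.A) - χ G) - ∑ j, N.rC j * G j =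
      (χ (G' + N.A) - χ G') - ∑ j, N.rC j * G' j := by
    intro G G'
    apply const_of_inv (fun G => (χ (G + N.A) - χ G) - ∑ j, N.rC j * G j)
    intro j G
    rw [h2]
    have : ∑ l, N.rC l * (G + ee j) l = ∑ l, N.rC l * G l + N.rC j := by
      have h5 : ∑ l, N.rC l * ee j l = N.rC j := by
        rw [Finset.sum_eq_single j]
        · simp [ee]
        · intro b _ hb; simp [ee, hb]
        · intro h; exact absurd (mem_univ j) h
      rw [← h5, ← Finset.sum_add_distrib]
      apply Finset.sum_congr rfl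
      intro l _
      simp only [Pi.add_apply]; ring
    rw [this]; ring
  have h4 : ∀ G, 2 * (χ (G + N.A) - χ G) = ∑ j, N.rC j * (2 * G j + N.A j + N.K j) := by
    intro G
    have h4 := h3 G (-N.K - (G + N.A))
    have e1 : -N.K - (G + N.A) + N.A = -N.K - G := by abel
    rw [e1, hser G, hser (G + N.A)] at h4
    have h5 : ∑ j, N.rC j * (-N.K - (G + N.A)) j = - ∑ j, N.rC j * (G j + N.A j + N.K j) := by
      rw [← Finset.sum_neg_distrib]
      apply Finset.sum_congr rfl
      intro l _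
      simp only [Pi.sub_apply, Pi.add_apply, Pi.neg_apply]; ring
    rw [h5] at h4
    have h6 : ∑ j, N.rC j * (2 * G j + N.A j + N.K j) =
        ∑ j, N.rC j * G j + ∑ j, N.rC j * (G j + N.A j + N.K j) := by
      rw [← Finset.sum_add_distrib]
      apply Finset.sum_congr rfl
      intro l _
      ring
    rw [h6]
    linarith
  refine ⟨fun D => (χ D : ℝ), ?_, ?_⟩
  · intro D j
    beta_reduce
    rw [ee_eq, hχ]
    push_cast
    ring
  · intro G
    have h5 : ((2 * (χ (G + N.A) - χ G) : ℤ) : ℝ) =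
        ((∑ j, N.rC j * (2 * G j + N.A j + N.K j) : ℤ) : ℝ) := by rw [h4 G]
    rw [← h5]
    push_cast
    ring

/-- the combinatorial model from a potential, connectedness and negative definiteness -/
theorem omodel_of {X : (I → ℤ) → ℝ} (hX : ∀ D j, X (D + H471.ee j) - X D = N.deg D j + 1 - N.g j)
    (hc : ∀ S : Finset I, S.Nonempty → S ≠ univ → ∃ i ∈ S, ∃ j, j ∉ S ∧ 0 < N.M i j) :
    H471.OModel N.M N.K N.g N.δ N.deg X :=
  ⟨⟨N.M_symm, fun _ _ h => N.M_off h, N.adj', N.pos, hX⟩, hc, N.negdef hc⟩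

/-- The combinatorial model of a connected graph. -/
theorem exists_omodel (hN : N.Conn) : ∃ X : (I → ℤ) → ℝ,
    H471.OModel N.M N.K N.g N.δ N.deg X ∧
    ∀ G : I → ℤ, 2 * (X (G + N.A) - X G) =
      ((∑ j, N.rC j * (2 * G j + N.A j + N.K j) : ℤ) : ℝ) := by
  obtain ⟨X, h1, h2⟩ := N.exists_pot
  exact ⟨X, N.omodel_of h1 (N.conn' hN), h2⟩

/-- The degree of the bounding divisor is at most the intersection number. -/
theorem deg_le (D : I → ℤ) (j : I) : (N.deg D j : ℝ) ≤ -H471.ipR N.M (H471.toR D) j := by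
  rw [N.deg_eq', N.ipR_eq]
  simp only [H471.toR]
  have h1 : ∑ h ∈ N.at' j, (D (N.org (N.opp h)) : ℝ) / (N.nl h).r ≤
      ∑ h ∈ N.at' j, ((D (N.org (N.opp h)) : ℝ) +
      (N.nl h).rho (D j) (D (N.org (N.opp h)))) / (N.nl h).r := by
    apply Finset.sum_le_sum
    intro h _
    have h4 := N.r_pos h
    have h5 : (0 : ℝ) ≤ (N.nl h).rho (D j) (D (N.org (N.opp h))) := by
      exact_mod_cast (N.nl h).rho_nonneg _ _
    exact div_le_div_of_nonneg_right (by linarith) h4.le
  have h2 : 0 ≤ ∑ f ∈ N.fat j, ((N.fnl f).rho (D j) 0 : ℝ) / (N.fnl f).r := by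
    apply Finset.sum_nonneg
    intro f _
    have h4 := N.fr_pos f
    have h5 : (0 : ℝ) ≤ (N.fnl f).rho (D j) 0 := by
      exact_mod_cast (N.fnl f).rho_nonneg _ _
    positivity
  linarith

/-- The anchor of `exact_step` from the plane curve inequality. -/
theorem anchor {X : (I → ℤ) → ℝ} {c : (I → ℤ) → ℤ}
    (hX : ∀ G : I → ℤ, 2 * (X (G + N.A) - X G) =
      ((∑ j, N.rC j * (2 * G j + N.A j + N.K j) : ℤ) : ℝ))
    (hc : ∀ G : I → ℤ, ∑ j, N.rC j * (2 * G j + N.A j + N.K j) ≤ 2 * (c (G + N.A) - c G)) :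
    H471.Anchor N.M X c N.A := by
  refine ⟨?_, N.Apos, ?_⟩
  · intro j
    rw [N.ipA]
    have : (0 : ℝ) ≤ N.rC j := by exact_mod_cast N.rC_nonneg j
    linarith
  · intro D
    have h1 := hX D
    have h2 : ((∑ j, N.rC j * (2 * D j + N.A j + N.K j) : ℤ) : ℝ) ≤
        ((2 * (c (D + N.A) - c D) : ℤ) : ℝ) := by exact_mod_cast hc D
    rw [← h1] at h2
    push_cast at h2
    simp only [H471.uu]
    linarith

/-- The Cartier clause: `Z` Cartier at all the nodes and frozen points. -/
theorem cart {Z : I → ℤ} (hZ : ∀ h, (Z (N.org h), Z (N.org (N.opp h))) ∈ (N.nl h).L)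
    (hZf : ∀ f, (Z (N.forg f), (0 : ℤ)) ∈ (N.fnl f).L) (n : ℕ) (D : I → ℤ) (j : I)
    (hD : ∀ l, D l ≤ n * Z l) (hj : D j = n * Z j) :
    -(n * H471.ipR N.M (H471.toR Z) j) ≤ N.deg D j := by
  rw [N.deg_eq', N.ipR_eq]
  simp only [H471.toR]
  have h1 : ∑ h ∈ N.at' j, ((D (N.org (N.opp h)) : ℝ) +
      (N.nl h).rho (D j) (D (N.org (N.opp h)))) / (N.nl h).r ≤
      n * ∑ h ∈ N.at' j, (Z (N.org (N.opp h)) : ℝ) / (N.nl h).r := by
    rw [Finset.mul_sum]
    apply Finset.sum_le_sum
    intro h hh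
    rw [mem_at] at hh
    have h4 := N.r_pos h
    have hL : (D j, (n : ℤ) * Z (N.org (N.opp h))) ∈ (N.nl h).L := by
      have := (N.nl h).L.nsmul_mem (hZ h) n
      rw [hh] at this
      rw [hj]
      simpa [Prod.smul_mk] using this
    have h5 := (N.nl h).le_of_mem hL (hD (N.org (N.opp h)))
    have h6 : ((D (N.org (N.opp h)) : ℝ) + (N.nl h).rho (D j) (D (N.org (N.opp h)))) ≤
        n * Z (N.org (N.opp h)) := by exact_mod_cast h5
    rw [← mul_div_assoc]
    exact div_le_div_of_nonneg_right h6 h4.le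
  have h2 : ∑ f ∈ N.fat j, ((N.fnl f).rho (D j) 0 : ℝ) / (N.fnl f).r = 0 := by
    apply Finset.sum_eq_zero
    intro f hf
    rw [mem_fat] at hf
    have hL : (D j, (0 : ℤ)) ∈ (N.fnl f).L := by
      have := (N.fnl f).L.nsmul_mem (hZf f) n
      rw [hf] at this
      rw [hj]
      simpa [Prod.smul_mk] using this
    rw [(N.fnl f).rho_eq_zero.2 hL]; simp
  rw [h2]
  have h3 : (D j : ℝ) = n * Z j := by rw [hj]; push_cast; ring
  have h4 : (D j : ℝ) * N.s j = n * Z j * N.s j := by rw [h3]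
  linarith

/-- the common index: a multiple of it makes every cycle Cartier at all nodes -/
theorem mem_L_of_dvd (h : H) {x y : ℤ} {k : ℤ} (hk : ((N.nl h).r : ℤ) ∣ k) :
    (k * x, k * y) ∈ (N.nl h).L := by
  obtain ⟨c, rfl⟩ := hk
  have h1 : ((0 : ℤ), ((N.nl h).r : ℤ)) ∈ (N.nl h).L := ((N.nl h).zero _).2 dvd_rfl
  have h2 : (((N.nl h).r : ℤ), (0 : ℤ)) ∈ (N.nl h).L := by
    rw [← N.L_opp]
    have : ((N.nl (N.opp h)).r : ℤ) ∣ (N.nl h).r := by rw [N.r_opp]
    exact ((N.nl (N.opp h)).zero _).2 this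
  have h3 := (N.nl h).L.zsmul_mem h1 (c * y)
  have h4 := (N.nl h).L.zsmul_mem h2 (c * x)
  have h5 := (N.nl h).L.add_mem h4 h3
  have e : (c * x) • (((N.nl h).r : ℤ), (0 : ℤ)) + (c * y) • ((0 : ℤ), ((N.nl h).r : ℤ)) =
      (((N.nl h).r : ℤ) * c * x, ((N.nl h).r : ℤ) * c * y) := by
    simp only [Prod.smul_mk, Prod.mk_add_mk, smul_eq_mul, mul_zero, add_zero, zero_add]
    congr 1 <;> ring
  rwa [e] at h5

end NodeData

end Vale.Agent.P298.H400
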