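import Mathlib
import Vale.Agent.P298.H312.Lin

/-!
Computation sequences on an orbifold (Jung) model of a surface singularity.
The degrees of the step bundles are given as integer valued functions `deg j D` satisfying
four formal identities (squares, Serre duality, translation by the cycle of a function, and the
lower bound by the rational intersection matrix).
-/

namespace Vale.Agent.P298.H400

open Matrix Finset Vale.Agent.P298.H312

section Potential

variable {I : Type*} [Fintype I] [DecidableEq I]

/-- unit vector -/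
def ee (j : I) : I → ℤ := Pi.single j 1

omit [Fintype I] in
theorem ee_self (j : I) : ee j j = 1 := by simp [ee]

omit [Fintype I] in
theorem ee_ne {j l : I} (h : l ≠ j) : ee j l = 0 := by simp [ee, h]

theorem exists_sum (φ : ℤ → ℤ) : ∃ T : ℤ → ℤ, ∀ k, T (k + 1) = T k + φ k := by
  refine ⟨fun k => if 0 ≤ k then ∑ i ∈ Finset.range k.toNat, φ i else
     - ∑ i ∈ Finset.range (-k).toNat, φ (-(i : ℤ) - 1), ?_⟩
  intro k
  rcases lt_trichotomy k (-1) with hk | hk | hk
  · obtain ⟨n, rfl⟩ : ∃ n : ℕ, k = -(n : ℤ) - 2 := ⟨(-k - 2).toNat, by omega⟩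
    have h1 : ¬ (0 : ℤ) ≤ -(n : ℤ) - 2 + 1 := by omega
    have h2 : ¬ (0 : ℤ) ≤ -(n : ℤ) - 2 := by omega
    have h3 : (-(-(n : ℤ) - 2 + 1)).toNat = n + 1 := by omega
    have h4 : (-(-(n : ℤ) - 2)).toNat = (n + 1) + 1 := by omega
    simp only [h1, h2, if_false, h3, h4]
    rw [Finset.sum_range_succ _ (n + 1)]
    have h5 : -(((n + 1 : ℕ)) : ℤ) - 1 = -(n : ℤ) - 2 := by push_cast; ring
    rw [h5]; ring
  · subst hk
    simp
  · obtain ⟨n, rfl⟩ : ∃ n : ℕ, k = (n : ℤ) := ⟨k.toNat, by omega⟩
    have h1 : (0 : ℤ) ≤ (n : ℤ) + 1 := by omega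
    have h2 : (0 : ℤ) ≤ (n : ℤ) := by omega
    have h3 : ((n : ℤ) + 1).toNat = n + 1 := by omega
    simp only [h1, h2, if_true, h3, Int.toNat_natCast]
    rw [Finset.sum_range_succ]

/-- A closed discrete one-form on `ℤ^I` is exact. -/
theorem exists_potential (s : I → (I → ℤ) → ℤ)
    (sq : ∀ j l D, j ≠ l → s j D + s l (D + ee j) = s l D + s j (D + ee l)) :
    ∃ χ : (I → ℤ) → ℤ, ∀ j D, χ (D + ee j) = χ D + s j D := by
  suffices H : ∀ S : Finset I, ∃ χ : (I → ℤ) → ℤ, ∀ j ∈ S, ∀ D, χ (D + ee j) = χ D + s j D by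
    obtain ⟨χ, h⟩ := H univ
    exact ⟨χ, fun j D => h j (mem_univ j) D⟩
  intro S
  induction S using Finset.induction_on with
  | empty => exact ⟨0, by simp⟩
  | insert a S ha ih =>
    obtain ⟨χ, hχ⟩ := ih
    choose Tf hTf using exists_sum
    set t : (I → ℤ) → ℤ := fun D => s a D - (χ (D + ee a) - χ D) with ht
    have ht1 : ∀ j ∈ S, ∀ D, t (D + ee j) = t D := by
      intro j hj D
      have hja : j ≠ a := fun h => ha (h ▸ hj)
      have h1 := hχ j hj (D + ee a)
      have h2 := hχ j hj D
      have h3 := sq a j D hja.symm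
      have h4 : D + ee j + ee a = D + ee a + ee j := by abel
      simp only [ht]
      rw [h4, h1, h2]
      linarith
    refine ⟨fun D => χ D + Tf (fun k => t (Function.update D a k)) (D a), ?_⟩
    intro j hj D
    rcases Finset.mem_insert.1 hj with rfl | hjS
    · have h1 : ∀ k, Function.update (D + ee j) j k = Function.update D j k := by
        intro k; funext l
        by_cases hl : l = j
        · subst hl; simp
        · simp [hl, ee]
      have h2 : (D + ee j) j = D j + 1 := by simp [ee]
      simp only [h1, h2]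
      rw [hTf]
      rw [Function.update_eq_self]
      simp only [ht]
      ring
    · have hja : j ≠ a := fun h => ha (h ▸ hjS)
      have h1 : ∀ k, t (Function.update (D + ee j) a k) = t (Function.update D a k) := by
        intro k
        have : Function.update (D + ee j) a k = Function.update D a k + ee j := by
          funext l
          by_cases hl : l = a
          · subst hl; simp [ee, hja.symm]
          · simp [hl]
        rw [this, ht1 j hjS]
      have h2 : (D + ee j) a = D a := by simp [ee, hja.symm]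
      simp only [h1, h2]
      rw [hχ j hjS]
      ring

/-- A function on `ℤ^I` invariant under the unit vectors is constant. -/
theorem const_of_inv (ψ : (I → ℤ) → ℤ) (h : ∀ j D, ψ (D + ee j) = ψ D) (D D' : I → ℤ) :
    ψ D = ψ D' := by
  let H : AddSubgroup (I → ℤ) :=
    { carrier := {v | ∀ D, ψ (D + v) = ψ D}
      zero_mem' := by intro D; simp
      add_mem' := by
        intro v w hv hw D
        rw [← add_assoc, hw, hv]
      neg_mem' := by
        intro v hv D
        have := hv (D + -v)
        rw [neg_add_cancel_right] at this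
        exact this.symm }
  have hH : ∀ v, v ∈ H := by
    intro v
    have hv : v = ∑ j, v j • ee j := by
      funext l
      simp [ee, Finset.sum_apply, Pi.single_apply]
    rw [hv]
    apply AddSubgroup.sum_mem
    intro j _
    apply AddSubgroup.zsmul_mem
    intro D; exact h j D
  have := hH (D' - D) D
  rw [add_sub_cancel] at this
  exact this.symm

end Potential

/-- Numerical data of an orbifold model. `M` intersection matrix, `deg j D` degree of the bundle
of leading coefficients along `E_j` of sections of `O(-D)`, `K` order of the canonical form, `A`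
orders of a generic linear form, `r` number of its branches at `E_j`. -/
structure OrbData (I : Type*) [Fintype I] [DecidableEq I] where
  M : Matrix I I ℚ
  exc : ExcMat M
  conn : ExcMat.Conn M
  deg : I → (I → ℤ) → ℤ
  g : I → ℤ
  K : I → ℤ
  A : I → ℤ
  r : I → ℤ
  Apos : ∀ j, 0 < A j
  Aan : ∀ j, (M *ᵥ (fun l => (A l : ℚ))) j ≤ 0
  sq : ∀ j l D, j ≠ l → deg j D + deg l (D + ee j) = deg l D + deg j (D + ee l)
  serre : ∀ j D, deg j D + deg j (-K - ee j - D) = 2 * g j - 2
  trans : ∀ j D, deg j (D + A) = deg j D + r j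
  low : ∀ j (D : I → ℤ),
    (2 * g j - 2 : ℚ) - (M *ᵥ (fun l => ((D l : ℚ) + K l + ee j l))) j ≤ deg j D

namespace OrbData

variable {I : Type*} [Fintype I] [DecidableEq I] (O : OrbData I)

/-- Euler characteristic: a potential of the Riemann-Roch numbers of the steps. -/
theorem exists_chi : ∃ χ : (I → ℤ) → ℤ,
    (∀ j D, χ (D + ee j) = χ D + (O.deg j D + 1 - O.g j)) ∧
    (∀ G, 2 * (χ (G + O.A) - χ G) = ∑ j, O.r j * (2 * G j + O.A j + O.K j)) := by
  obtain ⟨χ, hχ⟩ := exists_potential (fun j D => O.deg j D + 1 - O.g j) (by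
    intro j l D hjl
    have := O.sq j l D hjl
    linarith)
  refine ⟨χ, hχ, ?_⟩
  -- Serre duality
  have h1 : ∀ D, χ (-O.K - D) = χ D := by
    have hinv : ∀ j D, (χ (-O.K - (D + ee j)) - χ (D + ee j)) = χ (-O.K - D) - χ D := by
      intro j D
      have e1 : -O.K - D = (-O.K - (D + ee j)) + ee j := by abel
      have e2 : χ (-O.K - D) = χ (-O.K - (D + ee j)) +
          (O.deg j (-O.K - (D + ee j)) + 1 - O.g j) := by
        conv_lhs => rw [e1]
        exact hχ j _
      have e3 := hχ j D
      have e4 := O.serre j D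
      have e5 : -O.K - ee j - D = -O.K - (D + ee j) := by abel
      rw [e5] at e4
      rw [e2, e3]
      linarith
    intro D
    have hc := const_of_inv (fun D => χ (-O.K - D) - χ D) hinv D (-O.K - D)
    beta_reduce at hc
    have e6 : -O.K - (-O.K - D) = D := by abel
    rw [e6] at hc
    linarith
  -- translation
  have h2 : ∀ j G, (χ (G + ee j + O.A) - χ (G + ee j)) = (χ (G + O.A) - χ G) + O.r j := by
    intro j G
    have e1 : G + ee j + O.A = G + O.A + ee j := by abel
    rw [e1, hχ, hχ, O.trans]
    ring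
  have h3 : ∀ G G', (χ (G + O.A) - χ G) - ∑ j, O.r j * G j =
      (χ (G' + O.A) - χ G') - ∑ j, O.r j * G' j := by
    intro G G'
    apply const_of_inv (fun G => (χ (G + O.A) - χ G) - ∑ j, O.r j * G j)
    intro j G
    beta_reduce
    rw [h2]
    have : ∑ l, O.r l * (G + ee j) l = ∑ l, O.r l * G l + O.r j := by
      have h5 : ∑ l, O.r l * ee j l = O.r j := by
        rw [Finset.sum_eq_single j]
        · simp [ee]
        · intro b _ hb; simp [ee, hb]
        · intro h; exact absurd (mem_univ j) h
      rw [← h5, ← Finset.sum_add_distrib]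
      apply Finset.sum_congr rfl
      intro l _
      simp only [Pi.add_apply]; ring
    rw [this]; ring
  intro G
  have h4 := h3 G (-O.K - (G + O.A))
  have e1 : -O.K - (G + O.A) + O.A = -O.K - G := by abel
  rw [e1, h1 G, h1 (G + O.A)] at h4
  have h5 : ∑ j, O.r j * (-O.K - (G + O.A)) j = - ∑ j, O.r j * (G j + O.A j + O.K j) := by
    rw [← Finset.sum_neg_distrib]
    apply Finset.sum_congr rfl
    intro l _
    simp only [Pi.sub_apply, Pi.add_apply, Pi.neg_apply]; ring
  rw [h5] at h4
  have h6 : ∑ j, O.r j * (2 * G j + O.A j + O.K j) =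
      ∑ j, O.r j * G j + ∑ j, O.r j * (G j + O.A j + O.K j) := by
    rw [← Finset.sum_add_distrib]
    apply Finset.sum_congr rfl
    intro l _
    ring
  rw [h6]
  linarith

/-- rational cycle of an integral one -/
def q (D : I → ℤ) : I → ℚ := fun l => (D l : ℚ)

/-- floor cycle -/
def dfl (W : I → ℚ) : I → ℤ := fun l => ⌊W l⌋ - O.K l

/-- cycle just before the jumps at `W` -/
def dce (W : I → ℚ) : I → ℤ := fun l => ⌈W l⌉ - 1 - O.K l

theorem deg_gt {W : I → ℚ} {D : I → ℤ} {j : I}
    (hf0 : ∀ l, ((D l : ℚ) + O.K l) ≤ W l) (hj : W j = D j + O.K j + 1)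
    (hW : (O.M *ᵥ W) j ≤ 0)
    (hor : (O.M *ᵥ W) j < 0 ∨ ∃ l, l ≠ j ∧ 0 < O.M j l ∧ ((D l : ℚ) + O.K l) < W l) :
    2 * O.g j - 2 < O.deg j D := by
  have h1 := O.low j D
  have h2 : (O.M *ᵥ (fun l => ((D l : ℚ) + O.K l + ee j l))) j =
      (O.M *ᵥ W) j - ∑ l ∈ univ.erase j, O.M j l * (W l - (D l + O.K l)) := by
    simp only [Matrix.mulVec, dotProduct]
    rw [← Finset.add_sum_erase _ _ (mem_univ j), ← Finset.add_sum_erase (s := univ)
      (f := fun l => O.M j l * W l) (h := mem_univ j)]
    have h3 : ∑ x ∈ univ.erase j, O.M j x * ((D x : ℚ) + O.K x + ee j x) =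
      ∑ x ∈ univ.erase j, O.M j x * W x -
        ∑ l ∈ univ.erase j, O.M j l * (W l - (D l + O.K l)) := by
      rw [← Finset.sum_sub_distrib]
      apply Finset.sum_congr rfl
      intro l hl
      have : l ≠ j := (Finset.mem_erase.1 hl).1
      rw [ee_ne this]
      push_cast; ring
    rw [h3, hj, ee_self]
    push_cast; ring
  have h4 : 0 ≤ ∑ l ∈ univ.erase j, O.M j l * (W l - (D l + O.K l)) := by
    apply Finset.sum_nonneg
    intro l hl
    have hlj : l ≠ j := (Finset.mem_erase.1 hl).1
    exact mul_nonneg (O.exc.off j l hlj.symm) (by linarith [hf0 l])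
  have h5 : (2 * O.g j - 2 : ℚ) < O.deg j D := by
    rcases hor with h | ⟨l, hlj, hM, hl⟩
    · linarith
    · have h6 : 0 < ∑ l ∈ univ.erase j, O.M j l * (W l - (D l + O.K l)) := by
        apply Finset.sum_pos'
        · intro l hl
          have hlj : l ≠ j := (Finset.mem_erase.1 hl).1
          exact mul_nonneg (O.exc.off j l hlj.symm) (by linarith [hf0 l])
        · exact ⟨l, Finset.mem_erase.2 ⟨hlj, mem_univ l⟩, mul_pos hM (by linarith)⟩
      linarith
  exact_mod_cast h5

end OrbData

end Vale.Agent.P298.H400
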