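import Vale.Agent.P298.H400.Node2

/-!
Constructor of `NodeData` in place language. At a place `P` of the residue field of the
component `j` there are integers `r ≥ 1`, `c` such that `w(g) = r * ord_P (lc g) + c * v_j(g)` is
the order of `g` along the second branch; the lattice is `{(x, y) : r ∣ y - c x}`.
-/

set_option linter.unusedSectionVars false

noncomputable section

namespace Vale.Agent.P298.H400

open Finset

/-- the lattice `{(x, y) : r ∣ y - c x}` -/
def NL.ofRC (r : ℕ) (hr : 0 < r) (c : ℤ) : NL where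
  L :=
    { carrier := {p | (r : ℤ) ∣ p.2 - c * p.1}
      zero_mem' := by simp
      add_mem' := by
        intro a b ha hb
        have := dvd_add ha hb
        simp only [Set.mem_ofPred_eq, Prod.snd_add, Prod.fst_add] at this ⊢
        have e : a.2 + b.2 - c * (a.1 + b.1) = (a.2 - c * a.1) + (b.2 - c * b.1) := by ring
        rw [e]; exact this
      neg_mem' := by
        intro a ha
        have := (dvd_neg).2 ha
        simp only [Set.mem_ofPred_eq, Prod.snd_neg, Prod.fst_neg] at this ⊢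
        have e : -a.2 - c * -a.1 = -(a.2 - c * a.1) := by ring
        rw [e]; exact this }
  r := r
  rpos := hr
  zero v := by
    change (r : ℤ) ∣ v - c * 0 ↔ _
    simp
  surj x := ⟨c * x, by
    change (r : ℤ) ∣ c * x - c * x
    simp⟩

theorem NL.mem_ofRC {r : ℕ} {hr : 0 < r} {c x y : ℤ} :
    (x, y) ∈ (NL.ofRC r hr c).L ↔ (r : ℤ) ∣ y - c * x := Iff.rfl

@[simp] theorem NL.ofRC_r {r : ℕ} {hr : 0 < r} {c : ℤ} : (NL.ofRC r hr c).r = r := rfl

theorem NL.ofRC_rho {r : ℕ} {hr : 0 < r} {c x y : ℤ} :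
    (NL.ofRC r hr c).rho x y = (c * x - y) % r := by
  have h1 : (0 : ℤ) < r := by exact_mod_cast hr
  apply NL.rho_unique
  · exact Int.emod_nonneg _ h1.ne'
  · exact Int.emod_lt_of_pos _ h1
  · rw [NL.mem_ofRC]
    have := Int.emod_add_mul_ediv (c * x - y) r
    have e : y + (c * x - y) % r - c * x = -(r * ((c * x - y) / r)) := by linarith
    rw [e]
    exact (dvd_neg).2 (dvd_mul_right _ _)

/-- the coefficient of the bounding divisor is an exact quotient -/
theorem NL.ofRC_quot {r : ℕ} {hr : 0 < r} {c x y : ℤ} :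
    (((c * x - y) / r : ℤ) : ℝ) = (c * x - (y + (NL.ofRC r hr c).rho x y)) / r := by
  have h1 : (0 : ℝ) < r := by exact_mod_cast hr
  rw [NL.ofRC_rho, eq_div_iff h1.ne']
  have := Int.emod_add_mul_ediv (c * x - y) r
  have h2 : (((c * x - y) % r + r * ((c * x - y) / r) : ℤ) : ℝ) = ((c * x - y : ℤ) : ℝ) := by
    rw [this]
  push_cast at h2
  linarith

/-- Place data. `H` places at nodes, `F` the other special places (all places with `r ≠ 1` or
`c ≠ 0` and the places of the branches of `x = 0` must occur). `oA`, `foA`: orders of the leading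
coefficient of `x`; `oK`, `foK` orders of the residue differential; `xo` order of `x` along the
second branch. -/
structure PlaceData (I H F : Type*) [Fintype I] [DecidableEq I] [Fintype H] [Fintype F] where
  org : H → I
  opp : H → H
  opp_opp : ∀ h, opp (opp h) = h
  org_ne : ∀ h, org (opp h) ≠ org h
  r : H → ℕ
  c : H → ℤ
  rpos : ∀ h, 0 < r h
  r_opp : ∀ h, r (opp h) = r h
  cc : ∀ h, (r h : ℤ) ∣ c h * c (opp h) - 1
  forg : F → I
  fr : F → ℕ
  fc : F → ℤ
  frpos : ∀ f, 0 < fr f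
  xo : F → ℤ
  xo_nonneg : ∀ f, 0 ≤ xo f
  xo_one : ∀ f, xo f ≠ 0 → fr f = 1
  xo_pos : ∃ f, 0 < xo f
  g : I → ℤ
  K : I → ℤ
  A : I → ℤ
  Apos : ∀ j, 0 < A j
  oA : H → ℤ
  foA : F → ℤ
  oK : H → ℤ
  foK : F → ℤ
  oA_eq : ∀ h, (r h : ℤ) * oA h = A (org (opp h)) - c h * A (org h)
  foA_eq : ∀ f, (fr f : ℤ) * foA f = xo f - fc f * A (forg f)
  oK_eq : ∀ h, (r h : ℤ) * (oK h + 1) = (K (org (opp h)) + 1) - c h * (K (org h) + 1)
  foK_eq : ∀ f, (fr f : ℤ) * (foK f + 1) = 1 - fc f * (K (forg f) + 1)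
  sumA : ∀ j, ∑ h ∈ univ.filter (fun h => org h = j), oA h +
    ∑ f ∈ univ.filter (fun f => forg f = j), foA f = 0
  sumK : ∀ j, ∑ h ∈ univ.filter (fun h => org h = j), oK h +
    ∑ f ∈ univ.filter (fun f => forg f = j), foK f = 2 * g j - 2

namespace PlaceData

variable {I H F : Type*} [Fintype I] [DecidableEq I] [Fintype H] [Fintype F]
variable (P : PlaceData I H F)

/-- coefficient of the bounding divisor at a node place -/
def del (D : I → ℤ) (h : H) : ℤ := (P.c h * D (P.org h) - D (P.org (P.opp h))) / P.r h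

/-- coefficient of the bounding divisor at the other special places -/
def fdel (D : I → ℤ) (f : F) : ℤ := (P.fc f * D (P.forg f)) / P.fr f

/-- degree of the bounding divisor -/
def deg (D : I → ℤ) (j : I) : ℤ :=
  ∑ h ∈ univ.filter (fun h => P.org h = j), P.del D h +
    ∑ f ∈ univ.filter (fun f => P.forg f = j), P.fdel D f

/-- self-intersection -/
def s (j : I) : ℝ := - ∑ h ∈ univ.filter (fun h => P.org h = j), (P.c h : ℝ) / P.r h -
    ∑ f ∈ univ.filter (fun f => P.forg f = j), (P.fc f : ℝ) / P.fr f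

/-- number of branches of `x = 0` at `E_j` -/
def rC (j : I) : ℤ := ∑ f ∈ univ.filter (fun f => P.forg f = j), P.xo f

theorem r_pos (h : H) : (0 : ℝ) < P.r h := by exact_mod_cast P.rpos h

theorem fr_pos (f : F) : (0 : ℝ) < P.fr f := by exact_mod_cast P.frpos f

theorem intA (j : I) : P.A j * P.s j +
    ∑ h ∈ univ.filter (fun h => P.org h = j), (P.A (P.org (P.opp h)) : ℝ) / P.r h =
      -P.rC j := by
  have h0 := P.sumA j
  have h1 : ∑ h ∈ univ.filter (fun h => P.org h = j), (P.oA h : ℝ) =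
      ∑ h ∈ univ.filter (fun h => P.org h = j), (P.A (P.org (P.opp h)) : ℝ) / P.r h -
      P.A j * ∑ h ∈ univ.filter (fun h => P.org h = j), (P.c h : ℝ) / P.r h := by
    rw [Finset.mul_sum, ← Finset.sum_sub_distrib]
    apply Finset.sum_congr rfl
    intro h hh
    have hj : P.org h = j := by simpa using hh
    have h2 := P.oA_eq h
    have h3 : ((P.r h : ℤ) * P.oA h : ℝ) =
      (P.A (P.org (P.opp h)) : ℝ) - P.c h * P.A (P.org h) := by exact_mod_cast h2
    have h4 := P.r_pos h
    rw [hj] at h3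
    push_cast at h3
    field_simp
    linarith
  have h2 : ∑ f ∈ univ.filter (fun f => P.forg f = j), (P.foA f : ℝ) =
      (P.rC j : ℝ) -
      P.A j * ∑ f ∈ univ.filter (fun f => P.forg f = j), (P.fc f : ℝ) / P.fr f := by
    rw [rC, Int.cast_sum, Finset.mul_sum, ← Finset.sum_sub_distrib]
    apply Finset.sum_congr rfl
    intro f hf
    have hj : P.forg f = j := by simpa using hf
    have h2 := P.foA_eq f
    have h3 : ((P.fr f : ℤ) * P.foA f : ℝ) =
      (P.xo f : ℝ) - P.fc f * P.A (P.forg f) := by exact_mod_cast h2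
    have h4 := P.fr_pos f
    rw [hj] at h3
    push_cast at h3
    by_cases hx : P.xo f = 0
    · rw [hx] at h3 ⊢
      field_simp
      push_cast at h3 ⊢
      linarith
    · rw [P.xo_one f hx] at h3 ⊢
      push_cast at h3 ⊢
      linarith
  have h3 : (∑ h ∈ univ.filter (fun h => P.org h = j), (P.oA h : ℝ)) +
      ∑ f ∈ univ.filter (fun f => P.forg f = j), (P.foA f : ℝ) = 0 := by exact_mod_cast h0
  rw [h1, h2] at h3
  simp only [s]
  linarith

theorem adj (j : I) : (P.K j + 1) * P.s j +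
    ∑ h ∈ univ.filter (fun h => P.org h = j), (P.K (P.org (P.opp h)) : ℝ) / P.r h =
      2 * P.g j - 2 + ∑ h ∈ univ.filter (fun h => P.org h = j), (1 - 1 / (P.r h : ℝ)) +
        ∑ f ∈ univ.filter (fun f => P.forg f = j), (1 - 1 / (P.fr f : ℝ)) := by
  have h0 := P.sumK j
  have h1 : ∑ h ∈ univ.filter (fun h => P.org h = j), (P.oK h : ℝ) =
      ∑ h ∈ univ.filter (fun h => P.org h = j), (P.K (P.org (P.opp h)) : ℝ) / P.r h -
      (P.K j + 1) * ∑ h ∈ univ.filter (fun h => P.org h = j), (P.c h : ℝ) / P.r h -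
      ∑ h ∈ univ.filter (fun h => P.org h = j), (1 - 1 / (P.r h : ℝ)) := by
    rw [Finset.mul_sum, ← Finset.sum_sub_distrib, ← Finset.sum_sub_distrib]
    apply Finset.sum_congr rfl
    intro h hh
    have hj : P.org h = j := by simpa using hh
    have h2 := P.oK_eq h
    have h3 : ((P.r h : ℤ) * (P.oK h + 1) : ℝ) =
      ((P.K (P.org (P.opp h)) : ℝ) + 1) - P.c h * (P.K (P.org h) + 1) := by exact_mod_cast h2
    have h4 := P.r_pos h
    rw [hj] at h3
    push_cast at h3
    field_simp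
    linarith
  have h2 : ∑ f ∈ univ.filter (fun f => P.forg f = j), (P.foK f : ℝ) =
      - (P.K j + 1) * ∑ f ∈ univ.filter (fun f => P.forg f = j), (P.fc f : ℝ) / P.fr f -
      ∑ f ∈ univ.filter (fun f => P.forg f = j), (1 - 1 / (P.fr f : ℝ)) := by
    rw [Finset.mul_sum, ← Finset.sum_sub_distrib]
    apply Finset.sum_congr rfl
    intro f hf
    have hj : P.forg f = j := by simpa using hf
    have h2 := P.foK_eq f
    have h3 : ((P.fr f : ℤ) * (P.foK f + 1) : ℝ) =
      1 - P.fc f * (P.K (P.forg f) + 1) := by exact_mod_cast h2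
    have h4 := P.fr_pos f
    rw [hj] at h3
    push_cast at h3
    field_simp
    linarith
  have h3 : (∑ h ∈ univ.filter (fun h => P.org h = j), (P.oK h : ℝ)) +
      ∑ f ∈ univ.filter (fun f => P.forg f = j), (P.foK f : ℝ) = 2 * P.g j - 2 := by
    exact_mod_cast h0
  rw [h1, h2] at h3
  simp only [s]
  linarith

theorem L_opp (h : H) (x y : ℤ) :
    (x, y) ∈ (NL.ofRC (P.r (P.opp h)) (P.rpos _) (P.c (P.opp h))).L ↔
      (y, x) ∈ (NL.ofRC (P.r h) (P.rpos _) (P.c h)).L := by
  rw [NL.mem_ofRC, NL.mem_ofRC, P.r_opp]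
  have hcc := P.cc h
  constructor
  · intro h1
    have h2 := dvd_mul_of_dvd_right h1 (P.c h)
    have h3 := dvd_mul_of_dvd_left hcc x
    have h4 := dvd_add h2 h3
    have e : P.c h * (y - P.c (P.opp h) * x) + (P.c h * P.c (P.opp h) - 1) * x =
      -(x - P.c h * y) := by ring
    rw [e] at h4
    exact (dvd_neg).1 h4
  · intro h1
    have h2 := dvd_mul_of_dvd_right h1 (P.c (P.opp h))
    have h3 := dvd_mul_of_dvd_left hcc y
    have h4 := dvd_add h2 h3
    have e : P.c (P.opp h) * (x - P.c h * y) + (P.c h * P.c (P.opp h) - 1) * y =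
      -(y - P.c (P.opp h) * x) := by ring
    rw [e] at h4
    exact (dvd_neg).1 h4

theorem deg_eq (D : I → ℤ) (j : I) : (P.deg D j : ℝ) = -(D j * P.s j) -
    ∑ h ∈ univ.filter (fun h => P.org h = j), ((D (P.org (P.opp h)) : ℝ) +
      (NL.ofRC (P.r h) (P.rpos h) (P.c h)).rho (D j) (D (P.org (P.opp h)))) / P.r h -
    ∑ f ∈ univ.filter (fun f => P.forg f = j),
      ((NL.ofRC (P.fr f) (P.frpos f) (P.fc f)).rho (D j) 0 : ℝ) / P.fr f := by
  rw [deg]
  push_cast
  have h1 : ∑ h ∈ univ.filter (fun h => P.org h = j), (P.del D h : ℝ) =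
      D j * ∑ h ∈ univ.filter (fun h => P.org h = j), (P.c h : ℝ) / P.r h -
      ∑ h ∈ univ.filter (fun h => P.org h = j), ((D (P.org (P.opp h)) : ℝ) +
      (NL.ofRC (P.r h) (P.rpos h) (P.c h)).rho (D j) (D (P.org (P.opp h)))) / P.r h := by
    rw [Finset.mul_sum, ← Finset.sum_sub_distrib]
    apply Finset.sum_congr rfl
    intro h hh
    have hj : P.org h = j := by simpa using hh
    rw [del, NL.ofRC_quot (hr := P.rpos h), hj]
    have h4 := P.r_pos h
    field_simp
  have h2 : ∑ f ∈ univ.filter (fun f => P.forg f = j), (P.fdel D f : ℝ) =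
      D j * ∑ f ∈ univ.filter (fun f => P.forg f = j), (P.fc f : ℝ) / P.fr f -
      ∑ f ∈ univ.filter (fun f => P.forg f = j),
      ((NL.ofRC (P.fr f) (P.frpos f) (P.fc f)).rho (D j) 0 : ℝ) / P.fr f := by
    rw [Finset.mul_sum, ← Finset.sum_sub_distrib]
    apply Finset.sum_congr rfl
    intro f hf
    have hj : P.forg f = j := by simpa using hf
    have h3 := NL.ofRC_quot (hr := P.frpos f) (c := P.fc f) (x := D (P.forg f)) (y := 0)
    rw [sub_zero] at h3
    rw [fdel, h3, hj]
    have h4 := P.fr_pos f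
    push_cast
    field_simp
    ring
  rw [h1, h2, s]
  ring

theorem exists_rC_pos : ∃ j, 0 < P.rC j := by
  obtain ⟨f, hf⟩ := P.xo_pos
  refine ⟨P.forg f, ?_⟩
  apply Finset.sum_pos'
  · intro k _; exact P.xo_nonneg k
  · exact ⟨f, by simp, hf⟩

/-- The node data of place data. -/
def toNodeData : NodeData I H F where
  org := P.org
  opp := P.opp
  opp_opp := P.opp_opp
  org_ne := P.org_ne
  nl h := NL.ofRC (P.r h) (P.rpos h) (P.c h)
  r_opp h := P.r_opp h
  L_opp h x y := P.L_opp h x y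
  forg := P.forg
  fnl f := NL.ofRC (P.fr f) (P.frpos f) (P.fc f)
  s := P.s
  g := P.g
  K := P.K
  A := P.A
  rC := P.rC
  LA h := by
    rw [NL.mem_ofRC]
    exact ⟨P.oA h, (P.oA_eq h).symm⟩
  LK h := by
    rw [NL.mem_ofRC]
    exact ⟨P.oK h + 1, (P.oK_eq h).symm⟩
  fLA f := by
    rw [NL.mem_ofRC]
    by_cases hx : P.xo f = 0
    · refine ⟨P.foA f, ?_⟩
      rw [P.foA_eq, hx]
    · rw [P.xo_one f hx]; simp
  fLK f := by
    rw [NL.mem_ofRC]
    exact ⟨P.foK f + 1, (P.foK_eq f).symm⟩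
  Apos := P.Apos
  rC_nonneg j := Finset.sum_nonneg fun f _ => P.xo_nonneg f
  rC_pos := P.exists_rC_pos
  intA := P.intA
  adj := P.adj
  deg := P.deg
  deg_eq := P.deg_eq

end PlaceData

end Vale.Agent.P298.H400
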