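import Vale.Agent.P298.H272.Hur3
import Vale.Agent.P298.H416.Fund3

/-!
Row E1-PLC. Places of a finite extension of a function field lie over the places of the base,
and the places of a rational function field `k(η)` are the points of the projective line.
-/

set_option linter.unusedSectionVars false

open IntermediateField Polynomial Vale.Agent.P298.FF Vale.Agent.P298.H416

namespace Vale.Agent.P298.H400

section ext

variable {k κ0 κ : Type*} [Field k] [Field κ0] [Field κ] [Algebra k κ0] [Algebra k κ]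
  [Algebra κ0 κ] [IsScalarTower k κ0 κ]

/-- finite extensions of function fields are function fields. -/
theorem cff_ext [hc : CFF k κ0] [FiniteDimensional κ0 κ] : CFF k κ := by
  obtain ⟨t, ht, hfd⟩ := hc.ex
  refine ⟨hc.ac, algebraMap κ0 κ t, ?_, ?_⟩
  · exact (transcendental_algebraMap_iff (algebraMap κ0 κ).injective).2 ht
  · have h1 : FiniteDimensional k⟮t⟯ κ := FiniteDimensional.trans k⟮t⟯ κ0 κ
    have hmap : (k⟮t⟯).map (IsScalarTower.toAlgHom k κ0 κ) = k⟮algebraMap κ0 κ t⟯ := by
      rw [adjoin_map, Set.image_singleton]; rfl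
    let e : k⟮t⟯ ≃+* k⟮algebraMap κ0 κ t⟯ :=
      (((k⟮t⟯).equivMap (IsScalarTower.toAlgHom k κ0 κ)).trans (equivOfEq hmap)).toRingEquiv
    refine Module.Finite.of_equiv_equiv e (RingEquiv.refl κ) ?_
    ext x
    rfl

theorem FFnord {F : Type*} [Field F] {O : ValuationSubring F} {f : F → ℤ} (h : IsOrd O f) :
    NOrd O f := ⟨h.zero, h.mul, h.add, h.mem, h.one⟩

theorem nordFF {F : Type*} [Field F] {O : ValuationSubring F} {f : F → ℤ} (h : NOrd O f) :
    IsOrd O f := ⟨h.zero, h.mul, h.add, h.mem, h.one⟩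

/-- the order at a place is the normalised order of its ring. -/
theorem plk_nord {F : Type*} [Field F] [Algebra k F] [CFF k F] (P : Plk k F) :
    NOrd P.1 (ord P) := FFnord (ord_spec P)

theorem ord_eq_of_nord {F : Type*} [Field F] [Algebra k F] [CFF k F] (P : Plk k F) {f : F → ℤ}
    (h : NOrd P.1 f) : ord P = f := (plk_nord P).unique h

theorem comap_ne_top [Algebra.IsIntegral κ0 κ] {O : ValuationSubring κ} (h : O ≠ ⊤) :
    O.comap (algebraMap κ0 κ) ≠ ⊤ := by
  intro h1
  apply h
  rw [eq_top_iff]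
  intro x _
  obtain ⟨p, hp, hpx⟩ := Algebra.IsIntegral.isIntegral (R := κ0) x
  -- an integral equation with coefficients in `O`
  let f : κ0 →+* O :=
    { toFun := fun a => ⟨algebraMap κ0 κ a, by
        have : a ∈ O.comap (algebraMap κ0 κ) := by rw [h1]; exact ValuationSubring.mem_top _
        exact ValuationSubring.mem_comap.1 this⟩
      map_one' := Subtype.ext (map_one _)
      map_mul' := fun a b => Subtype.ext (map_mul _ a b)
      map_zero' := Subtype.ext (map_zero _)
      map_add' := fun a b => Subtype.ext (map_add _ a b) }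
  have hx : IsIntegral O x := by
    refine ⟨p.map f, hp.map f, ?_⟩
    rw [eval₂_map]
    exact hpx
  obtain ⟨y, hy⟩ := IsIntegrallyClosed.isIntegral_iff.1 hx
  rw [← hy]
  exact y.2

/-- the place of the base under a place. -/
def down [Algebra.IsIntegral κ0 κ] (P : Plk k κ) : Plk k κ0 :=
  ⟨P.1.comap (algebraMap κ0 κ), fun a => by
    rw [ValuationSubring.mem_comap, ← IsScalarTower.algebraMap_apply]
    exact P.2.1 a, comap_ne_top P.2.2⟩

/-- the place of a valuation ring over a place. -/
def up {P0 : Plk k κ0} (O : Ovr P0.1 κ) : Plk k κ :=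
  ⟨O.val, fun a => by
    have h1 : algebraMap k κ0 a ∈ O.val.comap (algebraMap κ0 κ) := by
      rw [O.prop]; exact P0.2.1 a
    rw [ValuationSubring.mem_comap, ← IsScalarTower.algebraMap_apply] at h1
    exact h1, by
    intro h
    apply P0.2.2
    rw [← O.prop, h]
    rfl⟩

/-- places of the extension and valuation rings over the places of the base. -/
def plEquiv [Algebra.IsIntegral κ0 κ] : Plk k κ ≃ Σ P0 : Plk k κ0, Ovr P0.1 κ where
  toFun P := ⟨down P, ⟨P.1, rfl⟩⟩
  invFun s := up s.2
  left_inv P := Subtype.ext rfl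
  right_inv s := by
    obtain ⟨P0, O⟩ := s
    have h : down (κ0 := κ0) (up O) = P0 := Subtype.ext O.prop
    obtain ⟨P, hP⟩ := P0
    obtain ⟨O, hO⟩ := O
    change O.comap (algebraMap κ0 κ) = P at hO
    subst hO
    rfl

@[simp] theorem up_val {P0 : Plk k κ0} (O : Ovr P0.1 κ) : (up O).1 = O.val := rfl

@[simp] theorem down_val [Algebra.IsIntegral κ0 κ] (P : Plk k κ) :
    (down (κ0 := κ0) P).1 = P.1.comap (algebraMap κ0 κ) := rfl

/-- the ramification index. -/
theorem exists_ram [CFF k κ0] [CFF k κ] [Algebra.IsIntegral κ0 κ] (P : Plk k κ) :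
    ∃ e : ℕ, 0 < e ∧ ∀ x : κ0, ord P (algebraMap κ0 κ x) = e * ord (down P) x := by
  have h1 := plk_nord P
  have hf : ∀ x : κ0, x ∈ (down (κ0 := κ0) P).1 ↔ algebraMap κ0 κ x ∈ P.1 := fun x => Iff.rfl
  obtain ⟨t, ht0, ht⟩ := exists_unif (down (κ0 := κ0) P)
  have hinj := (algebraMap κ0 κ).injective
  have hne : ∀ {x : κ0}, x ≠ 0 → algebraMap κ0 κ x ≠ 0 := fun hx h =>
    hx (hinj (by rw [h, map_zero]))
  have hsgn : ∀ x : κ0, x ≠ 0 → (0 ≤ ord (down (κ0 := κ0) P) x ↔ 0 ≤ ord P (algebraMap κ0 κ x)) := by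
    intro x hx
    have h2 := hf x
    rw [mem_iff_ord, mem_iff_ord] at h2
    simp only [hx, hne hx, false_or] at h2
    exact h2
  have hpos : 0 < ord P (algebraMap κ0 κ t) := by
    by_contra hcon
    have h2 := (hsgn t⁻¹ (inv_ne_zero ht0)).2 (by rw [map_inv₀, ord_inv]; omega)
    rw [ord_inv, ht] at h2
    omega
  refine ⟨(ord P (algebraMap κ0 κ t)).toNat, by omega, fun x => ?_⟩
  rw [Int.toNat_of_nonneg hpos.le]
  by_cases hx : x = 0
  · rw [hx, map_zero, ord_zero, ord_zero, mul_zero]
  set n := ord (down (κ0 := κ0) P) x with hn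
  have h3 : ord (down (κ0 := κ0) P) (x * t ^ (-n)) = 0 := by
    rw [ord_mul _ hx (zpow_ne_zero _ ht0), ord_zpow, ht, ← hn]; ring
  have h4 : x * t ^ (-n) ≠ 0 := mul_ne_zero hx (zpow_ne_zero _ ht0)
  have h5 : 0 ≤ ord P (algebraMap κ0 κ (x * t ^ (-n))) := (hsgn _ h4).1 h3.ge
  have h6 : 0 ≤ ord P (algebraMap κ0 κ (x * t ^ (-n))⁻¹) :=
    (hsgn _ (inv_ne_zero h4)).1 (by rw [ord_inv, h3]; rfl)
  rw [map_inv₀, ord_inv] at h6
  have h7 : ord P (algebraMap κ0 κ (x * t ^ (-n))) = 0 := by omega
  rw [map_mul, map_zpow₀, ord_mul _ (hne hx) (zpow_ne_zero _ (hne ht0)), ord_zpow] at h7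
  linarith

end ext

section residue

variable {k F : Type*} [Field k] [Field F] [Algebra k F] [CFF k F]

/-- the constants in the ring of a place. -/
def cst (P : Plk k F) : k →+* P.1 where
  toFun a := ⟨algebraMap k F a, P.2.1 a⟩
  map_one' := Subtype.ext (map_one _)
  map_mul' a b := Subtype.ext (map_mul _ a b)
  map_zero' := Subtype.ext (map_zero _)
  map_add' a b := Subtype.ext (map_add _ a b)

/-- the residue field of a place is `k`. -/
theorem residue_bijective (P : Plk k F) :
    Function.Bijective ((IsLocalRing.residue P.1).comp (cst P)) := by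
  refine ⟨RingHom.injective _, fun y => ?_⟩
  obtain ⟨z, rfl⟩ := IsLocalRing.residue_surjective y
  obtain ⟨c, hc⟩ := exists_cst P z.2
  refine ⟨c, ?_⟩
  rw [RingHom.comp_apply, eq_comm, ← sub_eq_zero, ← map_sub, IsLocalRing.residue_eq_zero_iff,
    ValuationSubring.valuation_lt_one_iff]
  rcases hc with hc | hc
  · have : z - cst P c = 0 := Subtype.ext (by
      show (z : F) - algebraMap k F c = 0
      rw [hc, sub_self])
    rw [this]
    simp
  · have h0 : (z : F) - algebraMap k F c ≠ 0 := by
      intro h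
      rw [h, ord_zero] at hc
      exact lt_irrefl _ hc
    exact ((plk_nord P).val_lt_one h0).2 hc

theorem residue_isAlgClosed (P : Plk k F) : IsAlgClosed (IsLocalRing.ResidueField P.1) := by
  have := (‹CFF k F›).ac
  let e := RingEquiv.ofBijective _ (residue_bijective P)
  refine IsAlgClosed.of_exists_root _ fun p hp hirr => ?_
  have hd : (p.map e.symm.toRingHom).degree ≠ 0 := by
    rw [degree_map_eq_of_injective e.symm.injective]
    exact fun h => by
      have := degree_pos_of_irreducible hirr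
      rw [h] at this
      exact lt_irrefl _ this
  obtain ⟨x, hx⟩ := IsAlgClosed.exists_root _ hd
  refine ⟨e x, ?_⟩
  rw [IsRoot.def, eval_map] at hx
  have h2 : e.toRingHom.comp e.symm.toRingHom = RingHom.id _ := by
    ext y
    simp
  have h3 := hom_eval₂ p e.symm.toRingHom e.toRingHom x
  rw [h2, eval₂_id] at h3
  rw [← show e.toRingHom x = e x from rfl, ← h3]
  show e (eval₂ e.symm.toRingHom x p) = 0
  rw [hx, map_zero]

end residue

/-! ### the line -/

/-- `F = k(η)` is a rational function field. -/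
structure IsLine (k : Type*) {F : Type*} [Field k] [Field F] [Algebra k F] (η : F) : Prop where
  ac : IsAlgClosed k
  tr : Transcendental k η
  top : k⟮η⟯ = ⊤

section line

variable {k F : Type*} [Field k] [Field F] [Algebra k F] {η : F}

theorem IsLine.fin (h : IsLine k η) : FiniteDimensional k⟮η⟯ F := by
  have h1 : Function.Surjective (algebraMap k⟮η⟯ F) := fun x =>
    ⟨⟨x, by rw [h.top]; exact mem_top⟩, rfl⟩
  exact Module.Finite.of_surjective (Algebra.linearMap k⟮η⟯ F) h1

theorem IsLine.cff (h : IsLine k η) : CFF k F := ⟨h.ac, η, h.tr, h.fin⟩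

theorem IsLine.finrank (h : IsLine k η) : Module.finrank k⟮η⟯ F = 1 := by
  rw [h.top]
  exact IntermediateField.finrank_top

theorem IsLine.nc (h : IsLine k η) (a : k) : η ≠ algebraMap k F a := fun h1 =>
  h.tr (h1 ▸ isAlgebraic_algebraMap a)

variable [CFF k F]

theorem IsLine.one_some (h : IsLine k η) (c : k) :
    ∃ P : Plk k F, ord P (η - algebraMap k F c) = 1 ∧
      ∀ Q : Plk k F, 0 < ord Q (η - algebraMap k F c) → Q = P := by
  classical
  have h1 := fib_sum h.nc c
  rw [h.finrank] at h1
  obtain ⟨P, hP⟩ := exists_zero (nc_sub h.nc c)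
  have hmem : ∀ Q, Q ∈ (fib_finite h.nc c).toFinset ↔ 0 < ord Q (η - algebraMap k F c) := by
    intro Q
    rw [Set.Finite.mem_toFinset, Set.mem_ofPred_eq]
  have hu : ∀ Q : Plk k F, 0 < ord Q (η - algebraMap k F c) → Q = P := by
    intro Q hQ
    by_contra hne
    have h2 : (insert Q {P} : Finset (Plk k F)) ⊆ (fib_finite h.nc c).toFinset := by
      intro R hR
      rw [Finset.mem_insert, Finset.mem_singleton] at hR
      rcases hR with rfl | rfl
      · exact (hmem _).2 hQ
      · exact (hmem _).2 hP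
    have h3 := Finset.sum_le_sum_of_subset_of_nonneg h2
      (f := fun R => ord R (η - algebraMap k F c)) (fun R hR _ => ((hmem R).1 hR).le)
    rw [Finset.sum_pair hne, h1] at h3
    push_cast at h3
    omega
  refine ⟨P, ?_, hu⟩
  have h4 : (fib_finite h.nc c).toFinset = {P} := by
    ext Q
    rw [hmem, Finset.mem_singleton]
    exact ⟨hu Q, fun hQ => hQ ▸ hP⟩
  rw [h4, Finset.sum_singleton] at h1
  exact_mod_cast h1

theorem IsLine.inv (h : IsLine k η) : IsLine k η⁻¹ where
  ac := h.ac
  tr := by
    intro h1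
    apply h.tr
    have := h1.inv
    rwa [inv_inv] at this
  top := by rw [adjoin_inv_eq, h.top]

theorem IsLine.one_none (h : IsLine k η) :
    ∃ P : Plk k F, ord P η = -1 ∧ ∀ Q : Plk k F, ord Q η < 0 → Q = P := by
  obtain ⟨P, h1, h2⟩ := h.inv.one_some 0
  rw [map_zero, sub_zero, ord_inv] at h1
  refine ⟨P, by omega, fun Q hQ => h2 Q ?_⟩
  rw [map_zero, sub_zero, ord_inv]
  omega

/-- the places of the line. -/
noncomputable def IsLine.Q (h : IsLine k η) : Option k → Plk k F
  | some c => (h.one_some c).choose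
  | none => h.one_none.choose

theorem IsLine.ord_some (h : IsLine k η) (c : k) :
    ord (h.Q (some c)) (η - algebraMap k F c) = 1 := (h.one_some c).choose_spec.1

theorem IsLine.ord_none (h : IsLine k η) : ord (h.Q none) η = -1 := h.one_none.choose_spec.1

theorem IsLine.eq_some (h : IsLine k η) {c : k} {P : Plk k F}
    (hP : 0 < ord P (η - algebraMap k F c)) : P = h.Q (some c) :=
  (h.one_some c).choose_spec.2 P hP

theorem IsLine.eq_none (h : IsLine k η) {P : Plk k F} (hP : ord P η < 0) : P = h.Q none :=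
  h.one_none.choose_spec.2 P hP

theorem IsLine.surj (h : IsLine k η) (P : Plk k F) : ∃ d, h.Q d = P := by
  by_cases h1 : 0 ≤ ord P η
  · obtain ⟨a, ha⟩ := exists_val h.nc h1
    exact ⟨some a, (h.eq_some ha).symm⟩
  · exact ⟨none, (h.eq_none (not_le.1 h1)).symm⟩

theorem IsLine.inj (h : IsLine k η) : Function.Injective h.Q := by
  intro d d' hd
  cases d with
  | none =>
    cases d' with
    | none => rfl
    | some c =>
      exfalso
      have h1 := h.ord_some c
      have h2 := nonneg_of_val (show 0 < ord (h.Q (some c)) (η - algebraMap k F c) by omega)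
      rw [← hd, h.ord_none] at h2
      omega
  | some c =>
    cases d' with
    | none =>
      exfalso
      have h1 := h.ord_some c
      have h2 := nonneg_of_val (show 0 < ord (h.Q (some c)) (η - algebraMap k F c) by omega)
      rw [hd, h.ord_none] at h2
      omega
    | some c' =>
      have h1 := h.ord_some c
      have h2 := h.ord_some c'
      rw [← hd] at h2
      rw [val_unique (P := h.Q (some c)) (x := η) (a := c) (b := c') (by omega) (by omega)]

/-- the places of the line are the points of the projective line. -/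
noncomputable def IsLine.equiv (h : IsLine k η) : Option k ≃ Plk k F :=
  Equiv.ofBijective h.Q ⟨h.inj, h.surj⟩

/-- every valuation ring of the line containing the constants is one of them. -/
theorem IsLine.exists_Q (h : IsLine k η) (O : ValuationSubring F)
    (hO : ∀ a, algebraMap k F a ∈ O) (hne : O ≠ ⊤) : ∃ d, (h.Q d).1 = O := by
  obtain ⟨d, hd⟩ := h.surj ⟨O, hO, hne⟩
  exact ⟨d, by rw [hd]⟩

end line

/-! ### places over the line -/

section ovr

variable {k κ0 κ : Type*} [Field k] [Field κ0] [Field κ] [Algebra k κ0] [Algebra k κ]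
  [Algebra κ0 κ] [IsScalarTower k κ0 κ] {η : κ0} [CFF k κ0] [CFF k κ]

/-- the order of the differential of `η` at a place over the point `c`. -/
theorem IsLine.wd_some (h : IsLine k η) {P : Plk k κ} {f : κ → ℤ} (hf : NOrd P.1 f) {c : k}
    [Algebra.IsIntegral κ0 κ] (hP : down P = h.Q (some c)) {e : ℤ}
    (he : ∀ x : κ0, f (algebraMap κ0 κ x) = e * ord (h.Q (some c)) x) :
    wd k (algebraMap κ0 κ η) P + 1 = e := by
  have hfo := ord_eq_of_nord P hf
  have h1 : ord P (algebraMap κ0 κ η - algebraMap k κ c) = e := by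
    have h2 := he (η - algebraMap k κ0 c)
    rw [h.ord_some, mul_one, map_sub, ← IsScalarTower.algebraMap_apply] at h2
    rw [hfo]; exact h2
  obtain ⟨e', he', hee⟩ := exists_ram (κ0 := κ0) P
  have h3 := hee (η - algebraMap k κ0 c)
  rw [hP, h.ord_some, mul_one, map_sub, ← IsScalarTower.algebraMap_apply] at h3
  rw [wd_fin (a := c) (by rw [h3]; exact_mod_cast he'), h1]
  ring

theorem IsLine.wd_none (h : IsLine k η) {P : Plk k κ} {f : κ → ℤ} (hf : NOrd P.1 f)
    [Algebra.IsIntegral κ0 κ] (hP : down P = h.Q none) {e : ℤ}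
    (he : ∀ x : κ0, f (algebraMap κ0 κ x) = e * ord (h.Q none) x) :
    wd k (algebraMap κ0 κ η) P + 1 = -e := by
  have hfo := ord_eq_of_nord P hf
  have h1 : ord P (algebraMap κ0 κ η) = -e := by
    have h2 := he η
    rw [h.ord_none] at h2
    rw [hfo, h2]; ring
  obtain ⟨e', he', hee⟩ := exists_ram (κ0 := κ0) P
  have h3 := hee η
  rw [hP, h.ord_none] at h3
  rw [wd_pole (by rw [h3]; omega), h1]
  ring

end ovr

end Vale.Agent.P298.H400
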