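import Vale.Agent.P298.H400.Plc

/-!
Row E1-PLC, second part: the residue fields of the valuation rings of the two levels.
-/

set_option linter.unusedSectionVars false
set_option linter.style.haveILetI false

open IntermediateField Polynomial Vale.Agent.P298.FF Vale.Agent.P298.H416

namespace Vale.Agent.P298.H400

section equiv

variable {k κ0 κ : Type*} [Field k] [Field κ0] [Field κ] [Algebra k κ0] [Algebra k κ]
  [Algebra κ0 κ] [IsScalarTower k κ0 κ] {η : κ0} [CFF k κ0]

/-- the places of a finite extension of the line, by the points of the line. -/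
noncomputable def IsLine.plEquiv (h : IsLine k η) [Algebra.IsIntegral κ0 κ] :
    Plk k κ ≃ Σ d : Option k, Ovr (h.Q d).1 κ :=
  (H400.plEquiv (κ0 := κ0)).trans (Equiv.sigmaCongrLeft' h.equiv.symm)

theorem IsLine.plEquiv_val (h : IsLine k η) [Algebra.IsIntegral κ0 κ] (P : Plk k κ) :
    (h.plEquiv (κ := κ) P).2.val = P.1 := by
  obtain ⟨s, rfl⟩ := (h.plEquiv (κ := κ)).symm.surjective P
  rw [Equiv.apply_symm_apply]
  rfl

theorem IsLine.plEquiv_symm_val (h : IsLine k η) [Algebra.IsIntegral κ0 κ]
    (s : Σ d : Option k, Ovr (h.Q d).1 κ) : ((h.plEquiv (κ := κ)).symm s).1 = s.2.val := rfl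

theorem IsLine.plEquiv_fst (h : IsLine k η) [Algebra.IsIntegral κ0 κ] (P : Plk k κ)
    (d : Option k) : (h.plEquiv (κ := κ) P).1 = d ↔
      P.1.comap (algebraMap κ0 κ) = (h.Q d).1 := by
  obtain ⟨⟨d', O⟩, rfl⟩ := (h.plEquiv (κ := κ)).symm.surjective P
  rw [Equiv.apply_symm_apply, IsLine.plEquiv_symm_val]
  simp only
  rw [O.prop]
  constructor
  · rintro rfl
    rfl
  · intro h1
    exact h.inj (Subtype.ext h1)

end equiv

section res

variable {L : Type*} [Field L] {O : ValuationSubring L}

/-- the residue field by a residue map. -/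
noncomputable def resLift {k' : Type*} [Field k'] (ρ : Res O k') :
    IsLocalRing.ResidueField O →+* k' :=
  Ideal.Quotient.lift (IsLocalRing.maximalIdeal O) ρ.ρ (fun x hx =>
    (ρ.ker x).2 ((ValuationSubring.valuation_lt_one_iff O x).1 hx))

theorem resLift_residue {k' : Type*} [Field k'] (ρ : Res O k') (x : O) :
    resLift ρ (IsLocalRing.residue O x) = ρ.ρ x := rfl

theorem resLift_bijective {k' : Type*} [Field k'] (ρ : Res O k')
    (hs : Function.Surjective ρ.ρ) : Function.Bijective (resLift ρ) :=
  ⟨(resLift ρ).injective, fun y => by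
    obtain ⟨z, hz⟩ := hs y
    exact ⟨IsLocalRing.residue O z, hz⟩⟩

/-- the residue field by a surjective residue map. -/
noncomputable def resEquiv {k' : Type*} [Field k'] (ρ : Res O k')
    (hs : Function.Surjective ρ.ρ) : IsLocalRing.ResidueField O ≃+* k' :=
  RingEquiv.ofBijective (resLift ρ) (resLift_bijective ρ hs)

@[simp] theorem resEquiv_residue {k' : Type*} [Field k'] (ρ : Res O k')
    (hs : Function.Surjective ρ.ρ) (x : O) :
    resEquiv ρ hs (IsLocalRing.residue O x) = ρ.ρ x := rfl

variable {k : Type*} [Field k] [Algebra k L]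

/-- the constants in a valuation ring. -/
def cstO (hC : ∀ c : k, algebraMap k L c ∈ O) : k →+* O where
  toFun a := ⟨algebraMap k L a, hC a⟩
  map_one' := Subtype.ext (map_one _)
  map_mul' a b := Subtype.ext (map_mul _ a b)
  map_zero' := Subtype.ext (map_zero _)
  map_add' a b := Subtype.ext (map_add _ a b)

/-- the algebra structure of a residue field. -/
@[reducible] noncomputable def resAlgC (hC : ∀ c : k, algebraMap k L c ∈ O) :
    Algebra k (IsLocalRing.ResidueField O) :=
  ((IsLocalRing.residue O).comp (cstO hC)).toAlgebra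

/-- isomorphisms of lines. -/
theorem IsLine.map {F F' : Type*} [Field F] [Algebra k F] [Field F'] [Algebra k F'] {η : F}
    (h : IsLine k η) (e : F ≃ₐ[k] F') : IsLine k (e η) where
  ac := h.ac
  tr := fun h1 => h.tr ((isAlgebraic_algHom_iff (e : F →ₐ[k] F') e.injective).1 h1)
  top := by
    have h1 := adjoin_map k {η} (e : F →ₐ[k] F')
    rw [h.top, Set.image_singleton] at h1
    rw [show e η = (e : F →ₐ[k] F') η from rfl, ← h1, ← AlgHom.fieldRange_eq_map]
    exact AlgHom.fieldRange_eq_top.2 e.surjective

theorem isLine_X [IsAlgClosed k] : IsLine k (RatFunc.X : RatFunc k) :=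
  ⟨inferInstance, RatFunc.transcendental_X, RatFunc.adjoin_X⟩

/-- the residue field of a vertex is a line. -/
theorem isLine_res [IsAlgClosed k] (hC : ∀ c : k, algebraMap k L c ∈ O) (ρ : Res O (RatFunc k))
    (hs : Function.Surjective ρ.ρ) (hρ : ∀ c, ρ.ρ (cstO hC c) = algebraMap k (RatFunc k) c)
    {t : O} (ht : ρ.ρ t = RatFunc.X) :
    letI := resAlgC hC
    IsLine k (IsLocalRing.residue O t) := by
  letI := resAlgC hC
  let e : RatFunc k ≃ₐ[k] IsLocalRing.ResidueField O :=
    (AlgEquiv.ofRingEquiv (f := resEquiv ρ hs) (fun c => hρ c)).symm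
  have h1 := (isLine_X (k := k)).map e
  have h2 : e RatFunc.X = IsLocalRing.residue O t := by
    rw [AlgEquiv.symm_apply_eq]
    exact ht.symm
  rwa [h2] at h1

end res

section two

variable {k L K : Type*} [Field k] [Field L] [Field K] [Algebra L K] [Algebra k L] [Algebra k K]
  [IsScalarTower k L K] {W : ValuationSubring L}

theorem ovr_hC (hC : ∀ c : k, algebraMap k L c ∈ W) (O : Ovr W K) (c : k) :
    algebraMap k K c ∈ O.val := by
  have h1 : algebraMap k L c ∈ O.val.comap (algebraMap L K) := by rw [O.prop]; exact hC c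
  rw [ValuationSubring.mem_comap, ← IsScalarTower.algebraMap_apply] at h1
  exact h1

/-- the tower of the residue fields. -/
theorem res_tower (hC : ∀ c : k, algebraMap k L c ∈ W) (O : Ovr W K) :
    letI := resAlgC hC
    letI := resAlgC (ovr_hC hC O)
    IsScalarTower k (IsLocalRing.ResidueField W) (IsLocalRing.ResidueField O.val) := by
  letI := resAlgC hC
  letI := resAlgC (ovr_hC hC O)
  refine IsScalarTower.of_algebraMap_eq fun c => ?_
  show IsLocalRing.residue O.val (cstO (ovr_hC hC O) c) =
    algebraMap (IsLocalRing.ResidueField W) (IsLocalRing.ResidueField O.val)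
      (IsLocalRing.residue W (cstO hC c))
  rw [resAlg_residue]
  congr 1
  exact Subtype.ext (IsScalarTower.algebraMap_apply k L K c)

/-- the residue fields upstairs are function fields. -/
theorem res_cff [FiniteDimensional L K] [Algebra.IsSeparable L K] {w : L → ℤ} (hw : NOrd W w)
    (hC : ∀ c : k, algebraMap k L c ∈ W)
    (hcff : letI := resAlgC hC; CFF k (IsLocalRing.ResidueField W)) (O : Ovr W K) :
    letI := resAlgC (ovr_hC hC O)
    CFF k (IsLocalRing.ResidueField O.val) := by
  letI := resAlgC hC
  letI := resAlgC (ovr_hC hC O)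
  have := res_tower hC O
  have := res_finite hw O
  exact cff_ext (κ0 := IsLocalRing.ResidueField W)

end two

end Vale.Agent.P298.H400
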